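import Vale.Agent.P084.Calc

/-!
The pointwise algebraic lemma for P084: a totally symmetric tensor compatible with the
Gauss map of a norm vanishes.
-/

namespace Vale.Agent.P084

open Topology Filter Set Module
open scoped ContDiff

variable {X : Type*} [NormedAddCommGroup X] [NormedSpace ℝ X]

section

variable (T : Submodule ℝ X) (K : X →L[ℝ] X →L[ℝ] ℝ) (C : X →L[ℝ] X →L[ℝ] X)

theorem kc_perm
    (hCsymm : ∀ a ∈ T, ∀ b ∈ T, C a b = C b a)
    (hKC : ∀ a ∈ T, ∀ b ∈ T, ∀ c ∈ T, K a (C b c) = K b (C a c))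
    {a b c : X} (ha : a ∈ T) (hb : b ∈ T) (hc : c ∈ T) :
    K a (C b c) = K c (C b a) := by
  rw [hKC a ha b hb c hc, hCsymm a ha c hc, hKC b hb c hc a ha]

/-- The relation between `dn u ∘ C u` and `K u`. -/
theorem rel
    (hKsymm : ∀ a ∈ T, ∀ b ∈ T, K a b = K b a)
    (hKpos : ∀ a ∈ T, a ≠ 0 → 0 < K a a)
    (h2 : ∀ u ∈ T, u ≠ 0 → ∀ w ∈ T, K w u = 0 → dn u (C u w) = 0)
    {u w : X} (hu : u ∈ T) (hu0 : u ≠ 0) (hw : w ∈ T) :
    K u u * dn u (C u w) = dn u (C u u) * K u w := by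
  have hB := hKpos u hu hu0
  set r := K u w / K u u with hr
  have hrB : r * K u u = K u w := by rw [hr]; field_simp
  have hw' : w - r • u ∈ T := T.sub_mem hw (T.smul_mem r hu)
  have hperp : K (w - r • u) u = 0 := by
    simp only [map_sub, map_smul, sub_apply, smul_apply, smul_eq_mul]
    rw [hKsymm w hw u hu]; linarith
  have h := h2 u hu hu0 (w - r • u) hw' hperp
  simp only [map_sub, map_smul, smul_eq_mul] at h
  have h' : dn u (C u w) = r * dn u (C u u) := by linarith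
  rw [h']
  calc K u u * (r * dn u (C u u)) = (r * K u u) * dn u (C u u) := by ring
    _ = dn u (C u u) * K u w := by rw [hrB]; ring

/-- Riesz representation in a positive definite subspace. -/
theorem riesz [FiniteDimensional ℝ X]
    (hKpos : ∀ a ∈ T, a ≠ 0 → 0 < K a a) (φ : X →L[ℝ] ℝ) :
    ∃ a ∈ T, ∀ y ∈ T, K a y = φ y := by
  let Ψ : T →ₗ[ℝ] Module.Dual ℝ T :=
    { toFun := fun a => ((K (a : X) : X →ₗ[ℝ] ℝ).comp T.subtype)
      map_add' := by
        intro a b; ext y; simp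
      map_smul' := by
        intro c a; ext y; simp }
  have hinj : Function.Injective Ψ := by
    rw [injective_iff_map_eq_zero]
    intro a ha
    by_contra hne
    have ha0 : (a : X) ≠ 0 := fun h => hne (Subtype.ext h)
    have h1 := hKpos a a.2 ha0
    have h2 : Ψ a a = 0 := by rw [ha]; rfl
    have h3 : Ψ a a = K a a := rfl
    linarith
  have hsurj : Function.Surjective Ψ :=
    (LinearMap.injective_iff_surjective_of_finrank_eq_finrank
      (Subspace.dual_finrank_eq (K := ℝ) (V := T)).symm).mp hinj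
  obtain ⟨a, ha⟩ := hsurj ((φ : X →ₗ[ℝ] ℝ).comp T.subtype)
  refine ⟨a, a.2, fun y hy => ?_⟩
  have := congrArg (fun L : Module.Dual ℝ T => L ⟨y, hy⟩) ha
  simpa [Ψ] using this

end

section core

variable [FiniteDimensional ℝ X] (hs : ContDiffOn ℝ 3 (norm : X → ℝ) {0}ᶜ)
  (T : Submodule ℝ X) (K : X →L[ℝ] X →L[ℝ] ℝ) (C : X →L[ℝ] X →L[ℝ] X)

include hs in
/-- There is a nonzero `u` in `T` with `dn u (C u u) = 0`. -/
theorem exists_zero (hdim : 2 ≤ finrank ℝ T) :
    ∃ u ∈ T, u ≠ 0 ∧ dn u (C u u) = 0 := by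
  obtain ⟨v, hv⟩ := exists_linearIndependent_of_le_finrank hdim
  set s1 : X := (v 0 : X) with hs1
  set s2 : X := (v 1 : X) with hs2
  have hs1T : s1 ∈ T := (v 0).2
  have hs2T : s2 ∈ T := (v 1).2
  have hli : LinearIndependent ℝ ![(v 0 : T), v 1] := by
    convert hv using 1
    ext i; fin_cases i <;> rfl
  have hind : ∀ a b : ℝ, a • s1 + b • s2 = 0 → a = 0 ∧ b = 0 := by
    intro a b hab
    have h0 : a • (v 0 : T) + b • (v 1 : T) = 0 := by
      apply Subtype.ext
      simpa using hab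
    exact LinearIndependent.pair_iff.mp hli a b h0
  let p : ℝ → X := fun θ => Real.cos θ • s1 + Real.sin θ • s2
  have hpT : ∀ θ, p θ ∈ T := fun θ => T.add_mem (T.smul_mem _ hs1T) (T.smul_mem _ hs2T)
  have hp0 : ∀ θ, p θ ≠ 0 := by
    intro θ h
    obtain ⟨h1, h2⟩ := hind _ _ h
    have := Real.sin_sq_add_cos_sq θ
    rw [h1, h2] at this
    norm_num at this
  have hpc : Continuous p := by
    apply Continuous.add
    · exact Real.continuous_cos.smul continuous_const
    · exact Real.continuous_sin.smul continuous_const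
  let φ : ℝ → ℝ := fun θ => dn (p θ) (C (p θ) (p θ))
  have hφ : Continuous φ := by
    rw [continuous_iff_continuousAt]
    intro θ
    have h1 : ContinuousAt (fun t => dn (p t)) θ :=
      ContinuousAt.comp (f := p) (g := dn) (dn_contAt hs (hp0 θ)) hpc.continuousAt
    have h2 : Continuous (fun t => C (p t) (p t)) := (C.continuous.comp hpc).clm_apply hpc
    exact h1.clm_apply h2.continuousAt
  have hp1 : p 0 = s1 := by simp [p]
  have hp2 : p Real.pi = -s1 := by simp [p]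
  have hs10 : s1 ≠ 0 := by
    have := hp0 0
    rwa [hp1] at this
  have hφ2 : φ Real.pi = - φ 0 := by
    simp only [φ, hp1, hp2]
    rw [dn_neg hs hs10]
    simp
  have hpi : (0:ℝ) ≤ Real.pi := Real.pi_pos.le
  have hz : ∃ θ, φ θ = 0 := by
    rcases le_total (φ 0) 0 with h | h
    · have hmem : (0:ℝ) ∈ Set.Icc (φ 0) (φ Real.pi) := ⟨h, by rw [hφ2]; linarith⟩
      obtain ⟨θ, -, hθ⟩ := intermediate_value_Icc hpi hφ.continuousOn hmem
      exact ⟨θ, hθ⟩
    · have hmem : (0:ℝ) ∈ Set.Icc (φ Real.pi) (φ 0) := ⟨by rw [hφ2]; linarith, h⟩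
      obtain ⟨θ, -, hθ⟩ := intermediate_value_Icc' hpi hφ.continuousOn hmem
      exact ⟨θ, hθ⟩
  obtain ⟨θ, hθ⟩ := hz
  exact ⟨p θ, hpT θ, hp0 θ, hθ⟩

include hs in
/-- There is a minimizer of `K u u` among unit vectors of `T` with `dn u (C u u) = 0`. -/
theorem exists_min (hdim : 2 ≤ finrank ℝ T) :
    ∃ u ∈ T, ‖u‖ = 1 ∧ dn u (C u u) = 0 ∧
      ∀ v ∈ T, ‖v‖ = 1 → dn v (C v v) = 0 → K u u ≤ K v v := by
  obtain ⟨u, huT, hu0, huz⟩ := exists_zero hs T C hdim
  have : ProperSpace X := FiniteDimensional.proper_real X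
  let A : Set X := (T : Set X) ∩ Metric.sphere (0:X) 1
  have hAc : IsCompact A :=
    (isCompact_sphere (0:X) 1).inter_left (Submodule.closed_of_finiteDimensional T)
  let ψ : X → ℝ := fun w => dn w (C w w)
  have hψ : ContinuousOn ψ A := by
    intro w hw
    have hw0 : w ≠ 0 := by
      intro h
      have : ‖w‖ = 1 := by simpa [A] using hw.2
      rw [h] at this
      simp at this
    have h1 : ContinuousAt (fun t : X => dn t) w := dn_contAt hs hw0
    have h2 : Continuous (fun t : X => C t t) := C.continuous.clm_apply continuous_id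
    exact (h1.clm_apply h2.continuousAt).continuousWithinAt
  have hZclosed : IsClosed (A ∩ ψ ⁻¹' {0}) :=
    hψ.preimage_isClosed_of_isClosed hAc.isClosed isClosed_singleton
  have hZc : IsCompact (A ∩ ψ ⁻¹' {0}) := hAc.of_isClosed_subset hZclosed Set.inter_subset_left
  have hne : (A ∩ ψ ⁻¹' {0}).Nonempty := by
    refine ⟨‖u‖⁻¹ • u, ⟨⟨T.smul_mem _ huT, ?_⟩, ?_⟩⟩
    · simp [norm_smul, hu0]
    · have hpos : 0 < ‖u‖⁻¹ := by positivity
      simp only [ψ, Set.mem_preimage, Set.mem_singleton_iff]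
      rw [dn_smul hs hpos hu0]
      simp [huz]
  have hK : Continuous (fun w : X => K w w) := K.continuous.clm_apply continuous_id
  obtain ⟨m, hm, hmin⟩ := hZc.exists_isMinOn hne hK.continuousOn
  refine ⟨m, hm.1.1, by simpa [A] using hm.1.2, hm.2, ?_⟩
  intro v hvT hv1 hvz
  have hv' : v ∈ A ∩ ψ ⁻¹' {0} := ⟨⟨hvT, by simpa [A] using hv1⟩, hvz⟩
  exact hmin hv'

/-- The hypotheses of the algebraic lemma on a subspace. -/
structure Good : Prop where
  Ksymm : ∀ a ∈ T, ∀ b ∈ T, K a b = K b a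
  Kpos : ∀ a ∈ T, a ≠ 0 → 0 < K a a
  Cmem : ∀ a ∈ T, ∀ b ∈ T, C a b ∈ T
  Csymm : ∀ a ∈ T, ∀ b ∈ T, C a b = C b a
  KC : ∀ a ∈ T, ∀ b ∈ T, ∀ c ∈ T, K a (C b c) = K b (C a c)
  h2 : ∀ u ∈ T, u ≠ 0 → ∀ w ∈ T, K w u = 0 → dn u (C u w) = 0

variable {T K C}

include hs in
theorem exists_ker (hG : Good T K C) (hdim : 2 ≤ finrank ℝ T) :
    ∃ u ∈ T, u ≠ 0 ∧ ∀ b ∈ T, C u b = 0 := by
  obtain ⟨hKsymm, hKpos, hCmem, hCsymm, hKC, h2⟩ := hG
  obtain ⟨u0, hu0T, hu01, hu0z, hmin⟩ := exists_min hs T K C hdim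
  have hu00 : u0 ≠ 0 := by
    intro h; rw [h] at hu01; simp at hu01
  have hB := hKpos u0 hu0T hu00
  have hZ : ∀ w ∈ T, dn u0 (C u0 w) = 0 := by
    intro w hw
    have := rel T K C hKsymm hKpos h2 hu0T hu00 hw
    rw [hu0z, zero_mul] at this
    exact (mul_eq_zero.mp this).resolve_left hB.ne'
  obtain ⟨a, haT, ha⟩ := riesz T K hKpos (dn u0)
  have hau : K a u0 = 1 := by rw [ha u0 hu0T, dn_self hs hu00, hu01]
  have hua : K u0 a = 1 := by rw [hKsymm u0 hu0T a haT, hau]
  have ha0 : a ≠ 0 := by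
    rintro rfl
    simp at hau
  have hA := hKpos a haT ha0
  have hCa : C u0 a = 0 := by
    by_contra hne
    have hzT : C u0 a ∈ T := hCmem _ hu0T _ haT
    have h1 : K (C u0 a) (C u0 a) = K a (C u0 (C u0 a)) :=
      kc_perm T K C hCsymm hKC hzT hu0T haT
    rw [ha _ (hCmem _ hu0T _ hzT), hZ _ hzT] at h1
    have := hKpos _ hzT hne
    linarith
  have hCa' : C a u0 = 0 := by rw [hCsymm a haT u0 hu0T, hCa]
  have hza : dn a (C a a) = 0 := by
    have := rel T K C hKsymm hKpos h2 haT ha0 hu0T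
    rw [hCa', map_zero, mul_zero, hau, mul_one] at this
    exact this.symm
  have hnpos : 0 < ‖a‖ := norm_pos_iff.mpr ha0
  have hnne : ‖a‖ ≠ 0 := hnpos.ne'
  have hab := hmin (‖a‖⁻¹ • a) (T.smul_mem _ haT)
    (by rw [norm_smul, norm_inv, norm_norm, inv_mul_cancel₀ hnne])
    (by
      rw [dn_smul hs (inv_pos.mpr hnpos) ha0]
      simp [hza])
  have hab' : K u0 u0 * ‖a‖ ^ 2 ≤ K a a := by
    have e : K (‖a‖⁻¹ • a) (‖a‖⁻¹ • a) = (‖a‖⁻¹) ^ 2 * K a a := by
      simp only [map_smul, smul_apply, smul_eq_mul]; ring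
    rw [e] at hab
    have h3 := mul_le_mul_of_nonneg_right hab (sq_nonneg ‖a‖)
    have h4 : (‖a‖⁻¹) ^ 2 * K a a * ‖a‖ ^ 2 = K a a := by field_simp
    rw [h4] at h3
    exact h3
  have hAn : K a a ≤ ‖a‖ := by
    rw [ha a haT]
    exact (le_abs_self _).trans (dn_le u0 a)
  have hexp : ∀ t : ℝ, K (a - t • u0) (a - t • u0) = K a a - 2 * t + t ^ 2 * K u0 u0 := by
    intro t
    simp only [map_sub, map_smul, sub_apply, smul_apply, smul_eq_mul, hau, hua]
    ring
  have hnonneg : ∀ t : ℝ, 0 ≤ K (a - t • u0) (a - t • u0) := by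
    intro t
    by_cases h : a - t • u0 = 0
    · simp [h]
    · exact (hKpos _ (T.sub_mem haT (T.smul_mem _ hu0T)) h).le
  have hCS : 1 ≤ K a a * K u0 u0 := by
    have h3 := hnonneg (K u0 u0)⁻¹
    rw [hexp] at h3
    have h4 : (K u0 u0)⁻¹ ^ 2 * K u0 u0 = (K u0 u0)⁻¹ := by field_simp
    rw [h4] at h3
    have h5 : 0 ≤ (K a a - (K u0 u0)⁻¹) * K u0 u0 :=
      mul_nonneg (by linarith) hB.le
    have h6 : (K a a - (K u0 u0)⁻¹) * K u0 u0 = K a a * K u0 u0 - 1 := by field_simp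
    linarith
  have hAB : K a a * K u0 u0 = 1 := by
    apply le_antisymm _ hCS
    have h3 : K u0 u0 * (K a a) ^ 2 ≤ K u0 u0 * ‖a‖ ^ 2 :=
      mul_le_mul_of_nonneg_left (pow_le_pow_left₀ hA.le hAn 2) hB.le
    have h4 : K u0 u0 * (K a a) ^ 2 ≤ K a a := h3.trans hab'
    have h5 : (K a a * K u0 u0) * K a a ≤ 1 * K a a := by nlinarith
    exact le_of_mul_le_mul_right h5 hA
  have hal : a = K a a • u0 := by
    by_contra hne
    have h3 := hKpos _ (T.sub_mem haT (T.smul_mem (K a a) hu0T)) (sub_ne_zero.mpr hne)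
    rw [hexp] at h3
    have h4 : K a a - 2 * K a a + K a a ^ 2 * K u0 u0 = K a a * (K a a * K u0 u0 - 1) := by ring
    rw [h4, hAB] at h3
    simp at h3
  have hduK : ∀ y ∈ T, dn u0 y = K a a * K u0 y := by
    intro y hy
    rw [← ha y hy]
    conv_lhs => rw [hal]
    simp
  have hCuu : C u0 u0 = 0 := by
    have h3 : K a a • C u0 u0 = 0 := by
      have h4 := hCa
      rw [hal] at h4
      simpa using h4
    exact (smul_eq_zero.mp h3).resolve_left hA.ne'
  have key : ∀ w ∈ T, K u0 w = 0 → C u0 w = 0 := by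
    intro w hwT hw0
    by_contra hzne
    have hzT : C u0 w ∈ T := hCmem _ hu0T _ hwT
    set z : X := C u0 w with hz
    let p : ℝ → X := fun t => u0 + t • z
    have hp : HasDerivAt p z 0 := by
      have h := ((hasDerivAt_id (0:ℝ)).smul_const z).const_add u0
      simpa [p] using h
    have hdz : dn u0 z = 0 := hZ w hwT
    have hp0 : p 0 = u0 := by simp [p]
    have hpT : ∀ t, p t ∈ T := fun t => T.add_mem hu0T (T.smul_mem _ hzT)
    have hev : ∀ᶠ t in 𝓝 (0:ℝ), p t ≠ 0 :=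
      hp.continuousAt.eventually_ne (by rw [hp0]; exact hu00)
    have hdn : HasDerivAt (fun t => dn (p t)) (d2n u0 z) 0 := by
      have h0 : HasFDerivAt (dn : X → X →L[ℝ] ℝ) (d2n u0) (p 0) := by
        rw [hp0]; exact dn_hasF' hs hu00
      exact h0.comp_hasDerivAt (0:ℝ) hp
    have hCp : HasDerivAt (fun t => C (p t)) (C z) 0 :=
      C.hasFDerivAt.comp_hasDerivAt (0:ℝ) hp
    have hCw : HasDerivAt (fun t => C (p t) w) (C z w) 0 := by
      simpa using hCp.clm_apply (hasDerivAt_const (0:ℝ) w)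
    have hCpp : HasDerivAt (fun t => C (p t) (p t)) (C z (p 0) + C (p 0) z) 0 :=
      hCp.clm_apply hp
    have hl : HasDerivAt (fun t => dn (p t) (C (p t) w))
        (d2n u0 z (C (p 0) w) + dn (p 0) (C z w)) 0 := hdn.clm_apply hCw
    have he : HasDerivAt (fun t => dn (p t) (C (p t) (p t)))
        (d2n u0 z (C (p 0) (p 0)) + dn (p 0) (C z (p 0) + C (p 0) z)) 0 := hdn.clm_apply hCpp
    have hKp : HasDerivAt (fun t => K (p t)) (K z) 0 :=
      K.hasFDerivAt.comp_hasDerivAt (0:ℝ) hp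
    have hrho : HasDerivAt (fun t => K (p t) (p t)) (K z (p 0) + K (p 0) z) 0 :=
      hKp.clm_apply hp
    have hkappa : HasDerivAt (fun t => K (p t) w) (K z w) 0 := by
      simpa using hKp.clm_apply (hasDerivAt_const (0:ℝ) w)
    have hL := hrho.mul hl
    have hR := he.mul hkappa
    have heq : (fun t => K (p t) (p t) * dn (p t) (C (p t) w)) =ᶠ[𝓝 0]
        (fun t => dn (p t) (C (p t) (p t)) * K (p t) w) := by
      filter_upwards [hev] with t ht
      exact rel T K C hKsymm hKpos h2 (hpT t) ht hwT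
    have huniq := (hL.congr_of_eventuallyEq heq.symm).unique hR
    simp only [hp0, hu0z, hw0, mul_zero, zero_mul, add_zero, ← hz, hdz] at huniq
    have hfin : K u0 u0 * (d2n u0 z z + dn u0 (C z w)) = 0 := by
      simpa using huniq
    have h5 : d2n u0 z z + dn u0 (C z w) = 0 :=
      (mul_eq_zero.mp hfin).resolve_left hB.ne'
    have h6 : dn u0 (C z w) = K a a * K z z := by
      rw [hduK _ (hCmem _ hzT _ hwT), hKC u0 hu0T z hzT w hwT]
    have h7 := d2n_nonneg hs hu00 z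
    have h8 := hKpos z hzT hzne
    have h9 : 0 < K a a * K z z := mul_pos hA h8
    rw [h6] at h5
    linarith
  refine ⟨u0, hu0T, hu00, fun b hb => ?_⟩
  set r := K u0 b / K u0 u0 with hr
  have hrB : r * K u0 u0 = K u0 b := by rw [hr]; field_simp
  have h3 : C u0 (b - r • u0) = 0 := by
    apply key _ (T.sub_mem hb (T.smul_mem r hu0T))
    simp only [map_sub, map_smul, smul_eq_mul]
    linarith
  simpa [hCuu, sub_eq_zero] using h3

omit [FiniteDimensional ℝ X] in
/-- Restriction of `Good` to an invariant subspace. -/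
theorem Good.mono (hG : Good T K C) {S : Submodule ℝ X} (hST : S ≤ T)
    (hS : ∀ a ∈ S, ∀ b ∈ S, C a b ∈ S) : Good S K C where
  Ksymm := fun a ha b hb => hG.Ksymm a (hST ha) b (hST hb)
  Kpos := fun a ha h0 => hG.Kpos a (hST ha) h0
  Cmem := hS
  Csymm := fun a ha b hb => hG.Csymm a (hST ha) b (hST hb)
  KC := fun a ha b hb c hc => hG.KC a (hST ha) b (hST hb) c (hST hc)
  h2 := fun u hu h0 w hw h => hG.h2 u (hST hu) h0 w (hST hw) h

include hs in
/-- Rank one tensors are excluded since a norm is unbounded along every line. -/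
theorem rank_one_vanish (hG : Good T K C) {u l : X} (hu : u ∈ T) (hu0 : u ≠ 0)
    (hCu : ∀ b ∈ T, C u b = 0) (hl : l ∈ T) (hl0 : l ≠ 0) (hul : K u l = 0) {β : ℝ}
    (hβ : C l l = β • l) : β = 0 := by
  obtain ⟨hKsymm, hKpos, hCmem, hCsymm, hKC, h2⟩ := hG
  by_contra hβ0
  have hLpos := hKpos l hl hl0
  have hBpos := hKpos u hu hu0
  have hlu : K l u = 0 := by rw [hKsymm l hl u hu, hul]
  have hlnorm : 0 < ‖l‖ := norm_pos_iff.mpr hl0
  set t : ℝ := (2 * ‖u‖ + 1) / ‖l‖ with ht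
  have htpos : 0 < t := by positivity
  have htl : t * ‖l‖ = 2 * ‖u‖ + 1 := by rw [ht]; field_simp
  set p : X := t • l + u with hp
  have hpT : p ∈ T := T.add_mem (T.smul_mem _ hl) hu
  have hCul : C u l = 0 := hCu l hl
  have hCpl : C p l = (t * β) • l := by
    rw [hp, map_add, add_apply, map_smul, smul_apply, hβ, hCul, add_zero,
      smul_smul]
  have hCpu : C p u = 0 := by rw [hCsymm p hpT u hu, hCu p hpT]
  have hCpp : C p p = (t ^ 2 * β) • l := by
    conv_lhs => rw [hp]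
    rw [← hp, map_add, map_smul, hCpl, hCpu, add_zero, smul_smul]
    congr 1
    ring
  have hKpp : K p p = t ^ 2 * K l l + K u u := by
    simp only [hp, map_add, map_smul, add_apply, smul_apply, smul_eq_mul,
      hlu, hul]
    ring
  have hKlp : K l p = t * K l l := by
    simp only [hp, map_add, map_smul, smul_eq_mul, hlu, add_zero]
  have hDpos : 0 < t ^ 2 * K l l + K u u := by positivity
  have hp0 : p ≠ 0 := by
    intro h
    rw [h] at hKpp
    simp at hKpp
    linarith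
  set r : ℝ := t * K l l / (t ^ 2 * K l l + K u u) with hr
  have hrD : r * (t ^ 2 * K l l + K u u) = t * K l l := by rw [hr]; field_simp
  have hvT : l - r • p ∈ T := T.sub_mem hl (T.smul_mem _ hpT)
  have hperp : K (l - r • p) p = 0 := by
    simp only [map_sub, map_smul, sub_apply, smul_apply, smul_eq_mul]
    rw [hKpp, hKlp, hrD]
    ring
  have hh := h2 p hpT hp0 _ hvT hperp
  have hCpv : C p (l - r • p) = ((t * β) - r * (t ^ 2 * β)) • l := by
    rw [map_sub, map_smul, hCpl, hCpp, smul_smul, sub_smul]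
  rw [hCpv, map_smul, smul_eq_mul] at hh
  have hcoef : (t * β) - r * (t ^ 2 * β) ≠ 0 := by
    have e : (t * β) - r * (t ^ 2 * β) = t * β * K u u / (t ^ 2 * K l l + K u u) := by
      rw [hr]; field_simp; ring
    rw [e]
    positivity
  have hdl : dn p l = 0 := (mul_eq_zero.mp hh).resolve_left hcoef
  have hself := dn_self hs hp0
  have hsplit : dn p p = t * dn p l + dn p u := by
    conv_lhs => rw [hp]
    rw [← hp, map_add, map_smul, smul_eq_mul]
  rw [hsplit, hdl, mul_zero, zero_add] at hself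
  have hle : ‖p‖ ≤ ‖u‖ := by
    rw [← hself]
    exact (le_abs_self _).trans (dn_le p u)
  have htri : ‖t • l‖ ≤ ‖p‖ + ‖u‖ := by
    have : t • l = p - u := by rw [hp]; abel
    rw [this]
    exact norm_sub_le _ _
  rw [norm_smul, Real.norm_of_nonneg htpos.le, htl] at htri
  have := norm_nonneg u
  linarith

omit [FiniteDimensional ℝ X] in
/-- One dimensional reduction step. -/
theorem good_step [FiniteDimensional ℝ X] (hG : Good T K C) {u : X} (hu : u ∈ T) (hu0 : u ≠ 0)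
    (hCu : ∀ b ∈ T, C u b = 0) :
    ∃ S : Submodule ℝ X, S ≤ T ∧ Good S K C ∧ finrank ℝ T = finrank ℝ S + 1 ∧
      (∀ x ∈ S, K u x = 0) ∧ (∀ x ∈ T, ∃ r : ℝ, ∃ y ∈ S, x = r • u + y) := by
  have hBpos := hG.Kpos u hu hu0
  let S : Submodule ℝ X := T ⊓ LinearMap.ker (K u : X →ₗ[ℝ] ℝ)
  have hmem : ∀ x, x ∈ S ↔ x ∈ T ∧ K u x = 0 := by
    intro x
    simp [S, Submodule.mem_inf, LinearMap.mem_ker]
  have hST : S ≤ T := inf_le_left
  have hdec : ∀ x ∈ T, ∃ r : ℝ, ∃ y ∈ S, x = r • u + y := by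
    intro x hx
    refine ⟨K u x / K u u, x - (K u x / K u u) • u, ?_, by abel⟩
    rw [hmem]
    refine ⟨T.sub_mem hx (T.smul_mem _ hu), ?_⟩
    simp only [map_sub, map_smul, smul_eq_mul]
    field_simp
    ring
  have hSinv : ∀ a ∈ S, ∀ b ∈ S, C a b ∈ S := by
    intro a ha b hb
    have ha' := (hmem a).mp ha
    have hb' := (hmem b).mp hb
    rw [hmem]
    refine ⟨hG.Cmem a ha'.1 b hb'.1, ?_⟩
    rw [hG.KC u hu a ha'.1 b hb'.1, hCu b hb'.1, map_zero]
  refine ⟨S, hST, hG.mono hST hSinv, ?_, fun x hx => ((hmem x).mp hx).2, hdec⟩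
  have e1 : S ⊔ (ℝ ∙ u) = T := by
    apply le_antisymm
    · exact sup_le hST ((Submodule.span_singleton_le_iff_mem _ _).mpr hu)
    · intro x hx
      obtain ⟨r, y, hy, rfl⟩ := hdec x hx
      rw [add_comm]
      exact Submodule.add_mem_sup hy (Submodule.smul_mem _ _ (Submodule.mem_span_singleton_self u))
  have e2 : S ⊓ (ℝ ∙ u) = ⊥ := by
    rw [eq_bot_iff]
    intro x hx
    obtain ⟨hx1, hx2⟩ := Submodule.mem_inf.mp hx
    obtain ⟨c, rfl⟩ := Submodule.mem_span_singleton.mp hx2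
    have h3 := ((hmem _).mp hx1).2
    simp only [map_smul, smul_eq_mul] at h3
    have hc : c = 0 := (mul_eq_zero.mp h3).resolve_right hBpos.ne'
    simp [hc]
  have h := Submodule.finrank_sup_add_finrank_inf_eq S (ℝ ∙ u)
  rw [e1, e2, finrank_bot, add_zero, finrank_span_singleton hu0] at h
  exact h

include hs in
/-- The main algebraic vanishing theorem. -/
theorem good_vanish_aux (n : ℕ) : ∀ (T : Submodule ℝ X), Good T K C → finrank ℝ T = n + 2 →
    ∀ a ∈ T, ∀ b ∈ T, C a b = 0 := by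
  induction n with
  | zero =>
    intro T hG hn a ha b hb
    obtain ⟨u, huT, hu0, hCu⟩ := exists_ker hs hG (by omega)
    obtain ⟨S, hST, hGS, hfin, hKS, hdec⟩ := good_step hG huT hu0 hCu
    have hS1 : finrank ℝ S = 1 := by omega
    obtain ⟨⟨l, hlS⟩, hl0, hl⟩ := finrank_eq_one_iff'.mp hS1
    have hl0' : l ≠ 0 := fun h => hl0 (Subtype.ext h)
    have hspan : ∀ x ∈ S, ∃ c : ℝ, x = c • l := by
      intro x hx
      obtain ⟨c, hc⟩ := hl ⟨x, hx⟩
      exact ⟨c, by simpa using (congrArg Subtype.val hc).symm⟩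
    obtain ⟨β, hβ⟩ := hspan _ (hGS.Cmem l hlS l hlS)
    have hβ0 := rank_one_vanish hs hG huT hu0 hCu (hST hlS) hl0' (hKS l hlS) hβ
    have hCll : C l l = 0 := by rw [hβ, hβ0, zero_smul]
    obtain ⟨r, y, hy, rfl⟩ := hdec a ha
    obtain ⟨s, z, hz, rfl⟩ := hdec b hb
    obtain ⟨c, rfl⟩ := hspan y hy
    obtain ⟨d, rfl⟩ := hspan z hz
    have hCul : C u l = 0 := hCu l (hST hlS)
    have hClu : C l u = 0 := by rw [hG.Csymm l (hST hlS) u huT, hCul]
    have hCuu : C u u = 0 := hCu u huT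
    simp [hCll, hCul, hClu, hCuu]
  | succ n ih =>
    intro T hG hn a ha b hb
    obtain ⟨u, huT, hu0, hCu⟩ := exists_ker hs hG (by omega)
    obtain ⟨S, hST, hGS, hfin, hKS, hdec⟩ := good_step hG huT hu0 hCu
    have hS1 : finrank ℝ S = n + 2 := by omega
    have hih := ih S hGS hS1
    obtain ⟨r, y, hy, rfl⟩ := hdec a ha
    obtain ⟨s, z, hz, rfl⟩ := hdec b hb
    have hCuz : C u z = 0 := hCu z (hST hz)
    have hCyu : C y u = 0 := by rw [hG.Csymm y (hST hy) u huT, hCu y (hST hy)]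
    have hCuu : C u u = 0 := hCu u huT
    simp [hih y hy z hz, hCuz, hCyu, hCuu]

include hs in
/-- The main algebraic vanishing theorem. -/
theorem good_vanish (hG : Good T K C) (hdim : 2 ≤ finrank ℝ T) : ∀ a ∈ T, ∀ b ∈ T, C a b = 0 := by
  obtain ⟨n, hn⟩ : ∃ n, finrank ℝ T = n + 2 := ⟨finrank ℝ T - 2, by omega⟩
  exact good_vanish_aux hs n T hG hn

end core

end Vale.Agent.P084
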