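import Vale.Agent.P084.Calc

/-!
For a strictly convex norm, the points of positive curvature are dense in the unit sphere
(helper for P084).
-/

namespace Vale.Agent.P084

open Topology Filter Set Module Metric
open scoped ContDiff

/-- The second order necessary condition at a local minimum of a function of a real variable. -/
theorem second_nonneg {g g' : ℝ → ℝ} {g2 : ℝ}
    (hg : ∀ᶠ t in 𝓝 (0:ℝ), HasDerivAt g (g' t) t) (hg2 : HasDerivAt g' g2 0)
    (hmin : ∀ᶠ t in 𝓝 (0:ℝ), g 0 ≤ g t) : 0 ≤ g2 := by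
  by_contra hneg
  push Not at hneg
  have hlm : IsLocalMin g 0 := hmin
  have h0 : g' 0 = 0 := hlm.hasDerivAt_eq_zero hg.self_of_nhds
  have hsl := hg2.tendsto_slope_zero_right
  have hev : ∀ᶠ t : ℝ in 𝓝[>] 0, t⁻¹ • (g' (0 + t) - g' 0) < 0 := hsl.eventually (gt_mem_nhds hneg)
  have hev2 : ∀ᶠ t : ℝ in 𝓝[>] 0, g' t < 0 := by
    filter_upwards [hev, self_mem_nhdsWithin] with t ht ht0
    have ht0' : (0:ℝ) < t := ht0
    rw [h0, zero_add, sub_zero, smul_eq_mul] at ht
    have h3 : t * (t⁻¹ * g' t) < 0 := mul_neg_of_pos_of_neg ht0' ht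
    rwa [← mul_assoc, mul_inv_cancel₀ ht0'.ne', one_mul] at h3
  have hev3 : ∀ᶠ t : ℝ in 𝓝[>] 0, HasDerivAt g (g' t) t ∧ g 0 ≤ g t :=
    (hg.and hmin).filter_mono nhdsWithin_le_nhds
  obtain ⟨u, hu, hsub⟩ := (mem_nhdsGT_iff_exists_Ioo_subset).mp (hev2.and hev3)
  have hu' : (0:ℝ) < u := hu
  set t : ℝ := u / 2 with ht
  have ht0 : 0 < t := by positivity
  have htu : t < u := by rw [ht]; linarith
  have hP : ∀ s ∈ Ioo (0:ℝ) u, g' s < 0 ∧ HasDerivAt g (g' s) s ∧ g 0 ≤ g s := fun s hs => hsub hs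
  have hcont : ContinuousOn g (Icc 0 t) := by
    intro s hs
    rcases eq_or_lt_of_le hs.1 with h | h
    · rw [← h]
      exact hg.self_of_nhds.continuousAt.continuousWithinAt
    · exact (hP s ⟨h, lt_of_le_of_lt hs.2 htu⟩).2.1.continuousAt.continuousWithinAt
  obtain ⟨ξ, hξ, hξe⟩ := exists_hasDerivAt_eq_slope g g' ht0 hcont
    (fun s hs => (hP s ⟨hs.1, hs.2.trans htu⟩).2.1)
  have h1 := (hP ξ ⟨hξ.1, hξ.2.trans htu⟩).1
  have h2 := (hP t ⟨ht0, htu⟩).2.2
  rw [hξe] at h1
  have h3 : 0 ≤ (g t - g 0) / (t - 0) := div_nonneg (by linarith) (by linarith)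
  linarith

variable {E : Type*} [NormedAddCommGroup E] [NormedSpace ℝ E]

/-- The points of positive curvature are dense in the sphere of a strictly convex norm. -/
theorem exists_pos_near [FiniteDimensional ℝ E] [StrictConvexSpace ℝ E]
    (hs : ContDiffOn ℝ 3 (norm : E → ℝ) {0}ᶜ) {x0 : E} (hx0 : ‖x0‖ = 1) {ε : ℝ} (hε : 0 < ε) :
    ∃ x : E, ‖x‖ = 1 ∧ ‖x - x0‖ < ε ∧ ∀ v : E, v ≠ 0 → dn x v = 0 → 0 < d2n x v v := by
  have hx00 : x0 ≠ 0 := by
    intro h; rw [h] at hx0; simp at hx0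
  have : ProperSpace E := FiniteDimensional.proper_real E
  set φ : E →L[ℝ] ℝ := dn x0 with hφ
  have hφ1 : φ x0 = 1 := by rw [hφ, dn_self hs hx00, hx0]
  have hφle : ∀ v, φ v ≤ ‖v‖ := fun v => (le_abs_self _).trans (dn_le x0 v)
  let e : E ≃L[ℝ] EuclideanSpace ℝ (Fin (finrank ℝ E)) := toEuclidean
  set M : ℝ := ‖(e.symm : EuclideanSpace ℝ (Fin (finrank ℝ E)) →L[ℝ] E)‖ + 1 with hMdef
  have hMpos : 0 < M := by positivity
  have hM : ∀ v, ‖v‖ ≤ M * ‖e v‖ := by
    intro v
    have h1 : v = (e.symm : EuclideanSpace ℝ (Fin (finrank ℝ E)) →L[ℝ] E) (e v) := by simp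
    calc ‖v‖ = ‖(e.symm : EuclideanSpace ℝ (Fin (finrank ℝ E)) →L[ℝ] E) (e v)‖ := by rw [← h1]
      _ ≤ ‖(e.symm : EuclideanSpace ℝ (Fin (finrank ℝ E)) →L[ℝ] E)‖ * ‖e v‖ :=
        ContinuousLinearMap.le_opNorm _ _
      _ ≤ M * ‖e v‖ := by
        apply mul_le_mul_of_nonneg_right _ (norm_nonneg _)
        rw [hMdef]; linarith
  set ρ : ℝ := ε / (4 * M) with hρdef
  have hρ : 0 < ρ := by positivity
  have hMρ : M * ρ = ε / 4 := by rw [hρdef]; field_simp
  have hec : Continuous (fun v : E => ‖e v‖) := e.continuous.norm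
  let B : Set E := {v | φ v = 0 ∧ ‖e v‖ ≤ ρ}
  let A : Set E := {v | φ v = 0 ∧ ‖e v‖ = ρ}
  have hBclosed : IsClosed B :=
    (isClosed_eq φ.continuous continuous_const).inter (isClosed_le hec continuous_const)
  have hAclosed : IsClosed A :=
    (isClosed_eq φ.continuous continuous_const).inter (isClosed_eq hec continuous_const)
  have hBbdd : Bornology.IsBounded B := by
    refine (Metric.isBounded_closedBall (x := (0:E)) (r := M * ρ)).subset ?_
    intro v hv
    rw [mem_closedBall_zero_iff]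
    exact (hM v).trans (mul_le_mul_of_nonneg_left hv.2 hMpos.le)
  have hBc : IsCompact B := Metric.isCompact_of_isClosed_isBounded hBclosed hBbdd
  have hAB : A ⊆ B := fun v hv => ⟨hv.1, hv.2.le⟩
  have hAc : IsCompact A := hBc.of_isClosed_subset hAclosed hAB
  have hstrict : ∀ v, φ v = 0 → v ≠ 0 → 1 < ‖x0 + v‖ := by
    intro v hv hv0
    have h1 : 1 ≤ ‖x0 + v‖ := by
      have := hφle (x0 + v)
      rw [map_add, hφ1, hv, add_zero] at this
      exact this
    by_contra hle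
    push Not at hle
    have h2 : ‖x0 + v‖ = 1 := le_antisymm hle h1
    have h3 : ‖x0 + (x0 + v)‖ = ‖x0‖ + ‖x0 + v‖ := by
      apply le_antisymm (norm_add_le _ _)
      have := hφle (x0 + (x0 + v))
      rw [map_add, map_add, hφ1, hv, add_zero] at this
      rw [h2, hx0]
      exact this
    have h4 := eq_of_norm_eq_of_norm_add_eq (hx0.trans h2.symm) h3
    apply hv0
    have h5 : x0 + v - x0 = 0 := sub_eq_zero.mpr h4.symm
    simpa using h5
  have hcn : Continuous (fun v : E => ‖x0 + v‖) := (continuous_const.add continuous_id).norm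
  obtain ⟨a', ha', hmin⟩ := hAc.exists_forall_le' hcn.continuousOn (a := 1) (by
    intro v hv
    refine hstrict v hv.1 ?_
    intro h0
    have := hv.2
    rw [h0, map_zero, norm_zero] at this
    linarith)
  set c : ℝ := (a' - 1) / (2 * ρ ^ 2) with hc
  have hcpos : 0 < c := by
    have : 0 < a' - 1 := by linarith
    positivity
  have hcρ : c * ρ ^ 2 = (a' - 1) / 2 := by
    rw [hc]; field_simp
  let ψ : E → ℝ := fun v => ‖x0 + v‖ - c * ‖e v‖ ^ 2
  have hψc : Continuous ψ := hcn.sub (continuous_const.mul (hec.pow 2))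
  have h0B : (0:E) ∈ B := ⟨map_zero _, by simp [hρ.le]⟩
  obtain ⟨vs, hvsB, hvsmin⟩ := hBc.exists_isMinOn ⟨0, h0B⟩ hψc.continuousOn
  have hψ0 : ψ 0 = 1 := by simp [ψ, hx0]
  have hvsle : ψ vs ≤ 1 := by
    have := hvsmin h0B
    simp only [mem_setOf_eq] at this
    rwa [hψ0] at this
  have hlt : ‖e vs‖ < ρ := by
    refine lt_of_le_of_ne hvsB.2 ?_
    intro heq
    have h1 := hmin vs ⟨hvsB.1, heq⟩
    have h2 : ψ vs = ‖x0 + vs‖ - c * ρ ^ 2 := by simp only [ψ, heq]
    rw [hcρ] at h2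
    rw [h2] at hvsle
    linarith
  set xs : E := x0 + vs with hxs
  have hφxs : φ xs = 1 := by rw [hxs, map_add, hφ1, hvsB.1, add_zero]
  have hxs1 : 1 ≤ ‖xs‖ := by
    have := hφle xs
    rwa [hφxs] at this
  have hxs0 : xs ≠ 0 := by
    intro h
    rw [h, norm_zero] at hxs1
    linarith
  -- the key second order inequality
  have hkey : ∀ w : E, φ w = 0 → 2 * c * ‖e w‖ ^ 2 ≤ d2n xs w w := by
    intro w hw
    set P : ℝ := ‖e vs‖ ^ 2 with hP
    set R : ℝ := inner ℝ (e vs) (e w) with hR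
    set D : ℝ := ‖e w‖ ^ 2 with hD
    let g : ℝ → ℝ := fun t => ‖xs + t • w‖ - c * (P + 2 * t * R + t ^ 2 * D)
    let g' : ℝ → ℝ := fun t => dn (xs + t • w) w - c * (2 * R + 2 * t * D)
    have hline : ∀ t : ℝ, HasDerivAt (fun s : ℝ => xs + s • w) w t := by
      intro t
      simpa using ((hasDerivAt_id t).smul_const w).const_add xs
    have hcl : Continuous (fun t : ℝ => xs + t • w) :=
      continuous_const.add (continuous_id.smul continuous_const)
    have hev0 : ∀ᶠ t : ℝ in 𝓝 0, xs + t • w ≠ 0 :=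
      hcl.continuousAt.eventually_ne (by simpa using hxs0)
    have hgd : ∀ᶠ t in 𝓝 (0:ℝ), HasDerivAt g (g' t) t := by
      filter_upwards [hev0] with t ht
      have h1 : HasDerivAt (fun s : ℝ => ‖xs + s • w‖) (dn (xs + t • w) w) t :=
        (dn_hasF hs ht).comp_hasDerivAt t (hline t)
      have h2 : HasDerivAt (fun s : ℝ => P + 2 * s * R + s ^ 2 * D) (2 * R + 2 * t * D) t := by
        have h3 : HasDerivAt (fun s : ℝ => 2 * s * R) (2 * R) t := by
          simpa using ((hasDerivAt_id t).const_mul 2).mul_const R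
        have h4 : HasDerivAt (fun s : ℝ => s ^ 2 * D) (2 * t * D) t := by
          simpa using (hasDerivAt_pow 2 t).mul_const D
        have h5 := (h3.const_add P).add h4
        exact h5
      exact h1.sub (h2.const_mul c)
    have hg2 : HasDerivAt g' (d2n xs w w - 2 * c * D) 0 := by
      have h0 : HasFDerivAt (dn : E → E →L[ℝ] ℝ) (d2n xs) (xs + (0:ℝ) • w) := by
        simpa using dn_hasF' hs hxs0
      have h3 : HasDerivAt (fun t : ℝ => dn (xs + t • w)) (d2n xs w) 0 :=
        h0.comp_hasDerivAt (0:ℝ) (hline 0)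
      have h4 : HasDerivAt (fun t : ℝ => dn (xs + t • w) w) (d2n xs w w) 0 := by
        simpa using h3.clm_apply (hasDerivAt_const (0:ℝ) w)
      have h5 : HasDerivAt (fun t : ℝ => c * (2 * R + 2 * t * D)) (2 * c * D) 0 := by
        have h6 : HasDerivAt (fun t : ℝ => 2 * t * D) (2 * D) 0 := by
          simpa using ((hasDerivAt_id (0:ℝ)).const_mul 2).mul_const D
        have h7 := (h6.const_add (2 * R)).const_mul c
        have e1 : c * (2 * D) = 2 * c * D := by ring
        rw [e1] at h7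
        exact h7
      exact h4.sub h5
    have hmin2 : ∀ᶠ t in 𝓝 (0:ℝ), g 0 ≤ g t := by
      have hcr : Continuous (fun t : ℝ => ‖e (vs + t • w)‖) :=
        hec.comp (continuous_const.add (continuous_id.smul continuous_const))
      have hev1 : ∀ᶠ t : ℝ in 𝓝 0, ‖e (vs + t • w)‖ < ρ :=
        hcr.continuousAt.eventually_lt continuousAt_const (by simpa using hlt)
      filter_upwards [hev1] with t ht
      have hmem : vs + t • w ∈ B := by
        refine ⟨?_, ht.le⟩
        rw [map_add, map_smul, hvsB.1, hw]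
        simp
      have h1 := hvsmin hmem
      simp only [mem_setOf_eq, ψ] at h1
      have h2 : ‖e (vs + t • w)‖ ^ 2 = P + 2 * t * R + t ^ 2 * D := by
        rw [map_add, map_smul, norm_add_sq_real, norm_smul, inner_smul_right, hP, hR, hD,
          Real.norm_eq_abs, mul_pow, sq_abs]
        ring
      rw [h2] at h1
      have h3 : x0 + (vs + t • w) = xs + t • w := by rw [hxs]; abel
      rw [h3] at h1
      simp only [g]
      simp only [zero_smul, add_zero, zero_mul, mul_zero, ne_eq, OfNat.ofNat_ne_zero,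
        not_false_eq_true, zero_pow]
      exact h1
    have := second_nonneg hgd hg2 hmin2
    linarith
  have hnpos : 0 < ‖xs‖ := norm_pos_iff.mpr hxs0
  have hinv : 0 < ‖xs‖⁻¹ := inv_pos.mpr hnpos
  refine ⟨‖xs‖⁻¹ • xs, ?_, ?_, ?_⟩
  · rw [norm_smul, norm_inv, norm_norm, inv_mul_cancel₀ hnpos.ne']
  · have h1 : ‖xs - x0‖ = ‖vs‖ := by rw [hxs]; simp
    have h2 : ‖vs‖ ≤ ε / 4 := by
      rw [← hMρ]
      exact (hM vs).trans (mul_le_mul_of_nonneg_left hvsB.2 hMpos.le)
    have h3 : ‖‖xs‖⁻¹ • xs - xs‖ = |1 - ‖xs‖| := by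
      have e1 : ‖xs‖⁻¹ • xs - xs = (‖xs‖⁻¹ - 1) • xs := by rw [sub_smul, one_smul]
      rw [e1, norm_smul, Real.norm_eq_abs]
      have e2 : |‖xs‖⁻¹ - 1| * ‖xs‖ = |(‖xs‖⁻¹ - 1) * ‖xs‖| := by
        rw [abs_mul, abs_of_pos hnpos]
      rw [e2, sub_mul, inv_mul_cancel₀ hnpos.ne', one_mul]
    have h4 : |1 - ‖xs‖| ≤ ‖xs - x0‖ := by
      have := abs_norm_sub_norm_le x0 xs
      rw [hx0] at this
      rwa [norm_sub_rev]
    have h5 : ‖‖xs‖⁻¹ • xs - x0‖ ≤ ‖‖xs‖⁻¹ • xs - xs‖ + ‖xs - x0‖ := by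
      have e1 : ‖xs‖⁻¹ • xs - x0 = (‖xs‖⁻¹ • xs - xs) + (xs - x0) := by abel
      rw [e1]
      exact norm_add_le _ _
    linarith
  · intro a ha0 hda
    rw [dn_smul hs hinv hxs0] at hda
    have h1 := d2n_smul hs hinv hxs0
    have h2 : d2n (‖xs‖⁻¹ • xs) a a = ‖xs‖ * d2n xs a a := by
      rw [← h1]
      simp only [smul_apply, smul_eq_mul]
      rw [← mul_assoc, mul_inv_cancel₀ hnpos.ne', one_mul]
    rw [h2]
    refine mul_pos hnpos ?_
    set w : E := a - (φ a) • xs with hw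
    have hφw : φ w = 0 := by
      rw [hw, map_sub, map_smul, hφxs]
      simp
    have hw0 : w ≠ 0 := by
      intro h
      have h3 : a = (φ a) • xs := sub_eq_zero.mp h
      rw [h3, map_smul, dn_self hs hxs0, smul_eq_mul] at hda
      have h4 : φ a = 0 := (mul_eq_zero.mp hda).resolve_right hnpos.ne'
      rw [h4, zero_smul] at h3
      exact ha0 h3
    have h3 : d2n xs a a = d2n xs w w := by
      have hself := d2n_self hs hxs0
      have h4 : ∀ b, d2n xs b xs = 0 := by
        intro b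
        rw [d2n_symm hs hxs0, hself]
        rfl
      have h5 : ∀ b, d2n xs xs b = 0 := by
        intro b
        rw [hself]
        rfl
      rw [hw]
      simp only [map_sub, map_smul, sub_apply, smul_apply, smul_eq_mul, h4, h5, mul_zero, sub_zero]
    rw [h3]
    have h4 := hkey w hφw
    have h5 : 0 < ‖e w‖ := by
      rw [norm_pos_iff]
      intro h
      exact hw0 (e.map_eq_zero_iff.mp h)
    have h6 : 0 < 2 * c * ‖e w‖ ^ 2 := by positivity
    linarith

end Vale.Agent.P084
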