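import Vale.Agent.P084.Main
import Vale.Agent.P084.Dense

/-!
Assembling the extension theorem (helper for P084).
-/

namespace Vale.Agent.P084

open Topology Filter Set Module Metric
open scoped ContDiff NNReal ENNReal

variable {X Y : Type*} [NormedAddCommGroup X] [NormedSpace ℝ X] [NormedAddCommGroup Y]
  [NormedSpace ℝ Y]

/-- The radial extension is Lipschitz. -/
theorem F_lipschitz (f : sphere (0:X) 1 → sphere (0:Y) 1) (hf : Isometry f) :
    LipschitzWith 3 (F f) := by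
  refine LipschitzWith.of_dist_le_mul fun x z => ?_
  rw [dist_eq_norm, dist_eq_norm]
  have h3 : ((3 : ℝ≥0) : ℝ) = 3 := by norm_num
  rw [h3]
  by_cases hx : x = 0
  · subst hx
    have h0 : F f (0:X) = 0 := by simp [F]
    rw [h0, zero_sub, norm_neg, norm_F, zero_sub, norm_neg]
    nlinarith [norm_nonneg z]
  by_cases hz : z = 0
  · subst hz
    have h0 : F f (0:X) = 0 := by simp [F]
    rw [h0, sub_zero, norm_F, sub_zero]
    nlinarith [norm_nonneg x]
  have hsplit : F f x - F f z = ‖x‖ • (G f x - G f z) + (‖x‖ - ‖z‖) • G f z := by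
    simp only [F]
    module
  have h1 : ‖F f x - F f z‖ ≤ ‖x‖ * ‖rad x - rad z‖ + |‖x‖ - ‖z‖| := by
    rw [hsplit]
    refine (norm_add_le _ _).trans ?_
    rw [norm_smul, norm_smul, norm_norm, G_dist f hf hx hz, norm_G f hz, Real.norm_eq_abs, mul_one]
  have hzr : z = ‖z‖ • rad z := by
    rw [rad, smul_smul, mul_inv_cancel₀ (norm_ne_zero_iff.mpr hz), one_smul]
  have hxr : x = ‖x‖ • rad x := by
    rw [rad, smul_smul, mul_inv_cancel₀ (norm_ne_zero_iff.mpr hx), one_smul]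
  have h2 : ‖x‖ * ‖rad x - rad z‖ ≤ ‖x - z‖ + |‖x‖ - ‖z‖| := by
    have e1 : ‖x‖ * ‖rad x - rad z‖ = ‖x - ‖x‖ • rad z‖ := by
      have e3 : x - ‖x‖ • rad z = ‖x‖ • (rad x - rad z) := by
        rw [smul_sub, ← hxr]
      rw [e3, norm_smul, norm_norm]
    have e2 : x - ‖x‖ • rad z = (x - z) + (‖z‖ - ‖x‖) • rad z := by
      have e3 : (x - z) + (‖z‖ - ‖x‖) • rad z = x - (z - ‖z‖ • rad z) - ‖x‖ • rad z := by
        module
      rw [e3, ← hzr]
      simp
    rw [e1, e2]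
    refine (norm_add_le _ _).trans ?_
    rw [norm_smul, norm_rad hz, Real.norm_eq_abs, mul_one, abs_sub_comm]
  have h4 : |‖x‖ - ‖z‖| ≤ ‖x - z‖ := abs_norm_sub_norm_le x z
  linarith

/-- A surjective isometry of spheres does not raise the dimension. -/
theorem finrank_le_of_sphere [FiniteDimensional ℝ X] [FiniteDimensional ℝ Y]
    (f : sphere (0:X) 1 → sphere (0:Y) 1) (hf : Isometry f) (hfs : Function.Surjective f) :
    finrank ℝ Y ≤ finrank ℝ X := by
  have hsurj : Function.Surjective (F f) := by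
    intro y
    by_cases hy : y = 0
    · exact ⟨0, by simp [F, hy]⟩
    · have hr : ‖rad y‖ = 1 := norm_rad hy
      obtain ⟨a, ha⟩ := hfs ⟨rad y, by simpa using hr⟩
      have ha1 : ‖(a : X)‖ = 1 := by simpa using a.2
      refine ⟨‖y‖ • (a : X), ?_⟩
      have hy0 : (0:ℝ) < ‖y‖ := norm_pos_iff.mpr hy
      rw [F_smul f hy0, F_of_unit f ha1, G_of_unit f ha1 a.2, ha]
      change ‖y‖ • rad y = y
      rw [rad, smul_smul, mul_inv_cancel₀ hy0.ne', one_smul]
  have h1 := (F_lipschitz f hf).dimH_range_le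
  rw [hsurj.range_eq, Real.dimH_univ_eq_finrank, Real.dimH_univ_eq_finrank] at h1
  exact_mod_cast h1

/-- The dimensions of two isometric spheres agree. -/
theorem finrank_eq_of_sphere [FiniteDimensional ℝ X] [FiniteDimensional ℝ Y]
    (f : sphere (0:X) 1 → sphere (0:Y) 1) (hf : Isometry f) (hfs : Function.Surjective f) :
    finrank ℝ X = finrank ℝ Y := by
  refine le_antisymm ?_ (finrank_le_of_sphere f hf hfs)
  let e : sphere (0:X) 1 ≃ sphere (0:Y) 1 := Equiv.ofBijective f ⟨hf.injective, hfs⟩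
  have he : Isometry e.symm := by
    refine Isometry.of_dist_eq fun a b => ?_
    have h1 := hf.dist_eq (e.symm a) (e.symm b)
    have h2 : ∀ c, f (e.symm c) = c := fun c => e.apply_symm_apply c
    rw [h2, h2] at h1
    exact h1.symm
  exact finrank_le_of_sphere e.symm he e.symm.surjective

/-- The antipodal property when the points of positive curvature are dense. -/
theorem G_neg_dense [FiniteDimensional ℝ Y] (hYs : ContDiffOn ℝ 3 (norm : Y → ℝ) {0}ᶜ)
    (hdense : ∀ y : Y, ‖y‖ = 1 → ∀ ε : ℝ, 0 < ε → ∃ y' : Y, ‖y'‖ = 1 ∧ ‖y' - y‖ < ε ∧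
      ∀ v : Y, v ≠ 0 → dn y' v = 0 → 0 < d2n y' v v)
    (f : sphere (0:X) 1 → sphere (0:Y) 1) (hf : Isometry f) (hfs : Function.Surjective f)
    {x : X} (hx : x ≠ 0) : G f (-x) = - G f x := by
  by_contra hne
  have hd : 0 < ‖G f (-x) + G f x‖ := by
    rw [norm_pos_iff]
    intro h
    exact hne (eq_neg_of_add_eq_zero_left h)
  obtain ⟨y', hy1, hyd, hpos⟩ := hdense (G f x) (norm_G f hx) (‖G f (-x) + G f x‖ / 3) (by positivity)
  obtain ⟨a, ha⟩ := hfs ⟨y', by simpa using hy1⟩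
  have ha1 : ‖(a : X)‖ = 1 := by simpa using a.2
  have ha0 : (a : X) ≠ 0 := by
    intro h; rw [h] at ha1; simp at ha1
  have hGa : G f (a : X) = y' := by
    rw [G_of_unit f ha1 a.2, ha]
  have hax : ‖rad x - (a : X)‖ = ‖y' - G f x‖ := by
    have h1 := G_dist f hf hx ha0
    rw [hGa, rad_of_unit ha1] at h1
    rw [← h1, norm_sub_rev]
  have hna : -(a : X) ≠ 0 := neg_ne_zero.mpr ha0
  have hanti : G f (-(a : X)) = -y' := by
    refine anti_of_pos hYs hy1 (norm_G f hna) ?_ hpos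
    have h1 := G_dist f hf ha0 hna
    rw [hGa, rad_neg, rad_of_unit ha1, sub_neg_eq_add, ← two_smul ℝ, norm_smul, ha1] at h1
    rw [h1]
    norm_num
  have hfar : ‖G f (-x) - G f (-(a : X))‖ = ‖y' - G f x‖ := by
    have hnx : -x ≠ 0 := neg_ne_zero.mpr hx
    rw [G_dist f hf hnx hna, rad_neg, rad_neg, rad_of_unit ha1, ← hax, neg_sub_neg, norm_sub_rev]
  rw [hanti, sub_neg_eq_add] at hfar
  have h2 : ‖G f (-x) + G f x‖ ≤ ‖G f (-x) + y'‖ + ‖y' - G f x‖ := by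
    have e : G f (-x) + G f x = (G f (-x) + y') - (y' - G f x) := by abel
    rw [e]
    exact norm_sub_le _ _
  rw [hfar] at h2
  linarith

/-- The general theorem: positive curvature on a dense subset of the target sphere. -/
theorem tingley_dense [FiniteDimensional ℝ X] [FiniteDimensional ℝ Y]
    (hdim : 3 ≤ finrank ℝ X)
    (hXs : ContDiffOn ℝ 3 (norm : X → ℝ) {0}ᶜ)
    (hYs : ContDiffOn ℝ 3 (norm : Y → ℝ) {0}ᶜ)
    (hdense : ∀ y : Y, ‖y‖ = 1 → ∀ ε : ℝ, 0 < ε → ∃ y' : Y, ‖y'‖ = 1 ∧ ‖y' - y‖ < ε ∧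
      ∀ v : Y, v ≠ 0 → dn y' v = 0 → 0 < d2n y' v v)
    (f : sphere (0:X) 1 → sphere (0:Y) 1) (hf : Isometry f) (hfs : Function.Surjective f) :
    ∃ T : X ≃ₗᵢ[ℝ] Y, ∀ x : sphere (0:X) 1, T x = f x := by
  have hfin := finrank_eq_of_sphere f hf hfs
  have hFd : ∀ x z : X, ‖x‖ = 1 → ‖z‖ = 1 → ‖F f x - F f z‖ = ‖x - z‖ := by
    intro x z hx hz
    have hx0 : x ≠ 0 := by
      intro h; rw [h] at hx; simp at hx
    have hz0 : z ≠ 0 := by
      intro h; rw [h] at hz; simp at hz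
    rw [F_of_unit f hx, F_of_unit f hz, G_dist f hf hx0 hz0, rad_of_unit hx, rad_of_unit hz]
  have hFa : ∀ x z : X, ‖x‖ = 1 → ‖z‖ = 1 → ‖F f x + F f z‖ = ‖x + z‖ := by
    intro x z hx hz
    have hx0 : x ≠ 0 := by
      intro h; rw [h] at hx; simp at hx
    have hz0 : z ≠ 0 := by
      intro h; rw [h] at hz; simp at hz
    have hz1 : -z ≠ 0 := neg_ne_zero.mpr hz0
    have hn : G f (-z) = - G f z := G_neg_dense hYs hdense f hf hfs hz0
    have hd := G_dist f hf hx0 hz1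
    rw [hn, sub_neg_eq_add, rad_neg, rad_of_unit hx, rad_of_unit hz, sub_neg_eq_add] at hd
    rw [F_of_unit f hx, F_of_unit f hz, hd]
  have hdenseX : ∀ x : X, ‖x‖ = 1 → ∀ ε : ℝ, 0 < ε → ∃ x' : X, ‖x'‖ = 1 ∧ ‖x' - x‖ < ε ∧
      ∀ v : Y, v ≠ 0 → dn (F f x') v = 0 → 0 < d2n (F f x') v v := by
    intro x hx ε hε
    obtain ⟨y', hy1, hyd, hpos⟩ := hdense (F f x) (by rw [norm_F, hx]) ε hε
    obtain ⟨a, ha⟩ := hfs ⟨y', by simpa using hy1⟩
    have ha1 : ‖(a : X)‖ = 1 := by simpa using a.2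
    have hFa' : F f (a : X) = y' := by
      rw [F_of_unit f ha1, G_of_unit f ha1 a.2, ha]
    refine ⟨a, ha1, ?_, ?_⟩
    · rw [← hFd a x ha1 hx, hFa']
      exact hyd
    · rw [hFa']
      exact hpos
  obtain ⟨L, hL⟩ := exists_linear hXs hYs (fun x hx => contDiffAt_F f hYs hXs hf hfs hx)
    (fun c hc x => F_smul f hc) (norm_F f) hFd hFa hdenseX hdim hfin
  have hLn : ∀ x, ‖L x‖ = ‖x‖ := by
    intro x
    by_cases hx : x = 0
    · simp [hx]
    · rw [hL x hx, norm_F]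
  let T0 : X →ₗᵢ[ℝ] Y := ⟨(L : X →ₗ[ℝ] Y), hLn⟩
  refine ⟨T0.toLinearIsometryEquiv hfin, fun x => ?_⟩
  have hx1 : ‖(x : X)‖ = 1 := by simpa using x.2
  have hx0 : (x : X) ≠ 0 := by
    intro h; rw [h] at hx1; simp at hx1
  change L (x : X) = _
  rw [hL _ hx0, F_of_unit f hx1, G_of_unit f hx1 x.2]

/-- The smooth case of Tingley's problem, positively curved target. -/
theorem tingley_smooth [FiniteDimensional ℝ X] [FiniteDimensional ℝ Y]
    (hdim : 3 ≤ finrank ℝ X)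
    (hXs : ContDiffOn ℝ 3 (norm : X → ℝ) {0}ᶜ)
    (hYs : ContDiffOn ℝ 3 (norm : Y → ℝ) {0}ᶜ)
    (hcurv : ∀ y : Y, ‖y‖ = 1 → ∀ v : Y, v ≠ 0 → fderiv ℝ norm y v = 0 →
      0 < fderiv ℝ (fderiv ℝ norm) y v v)
    (f : sphere (0:X) 1 → sphere (0:Y) 1) (hf : Isometry f) (hfs : Function.Surjective f) :
    ∃ T : X ≃ₗᵢ[ℝ] Y, ∀ x : sphere (0:X) 1, T x = f x :=
  tingley_dense hdim hXs hYs (fun y hy ε hε => ⟨y, hy, by simpa using hε, hcurv y hy⟩) f hf hfs

/-- The strictly convex smooth case of Tingley's problem. -/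
theorem tingley_strict [FiniteDimensional ℝ X] [FiniteDimensional ℝ Y] [StrictConvexSpace ℝ Y]
    (hdim : 3 ≤ finrank ℝ X)
    (hXs : ContDiffOn ℝ 3 (norm : X → ℝ) {0}ᶜ)
    (hYs : ContDiffOn ℝ 3 (norm : Y → ℝ) {0}ᶜ)
    (f : sphere (0:X) 1 → sphere (0:Y) 1) (hf : Isometry f) (hfs : Function.Surjective f) :
    ∃ T : X ≃ₗᵢ[ℝ] Y, ∀ x : sphere (0:X) 1, T x = f x :=
  tingley_dense hdim hXs hYs (fun _ hy _ hε => exists_pos_near hYs hy hε) f hf hfs

end Vale.Agent.P084
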