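import Mathlib

/-!
Calculus of degree-one homogeneous maps and of norms (helper file for P084).
-/

namespace Vale.Agent.P084

open Topology Filter Set
open scoped ContDiff

section homog

variable {E Z : Type*} [NormedAddCommGroup E] [NormedSpace ℝ E] [NormedAddCommGroup Z]
  [NormedSpace ℝ Z]

/-- first derivative of a positively homogeneous map is invariant under positive scaling -/
theorem fderiv_smul_of_homog {F : E → Z} (hF : ∀ c : ℝ, 0 < c → ∀ x, F (c • x) = c • F x)
    {c : ℝ} (hc : 0 < c) {x : E} (hd : DifferentiableAt ℝ F x)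
    (hd' : DifferentiableAt ℝ F (c • x)) : fderiv ℝ F (c • x) = fderiv ℝ F x := by
  have h1 : HasFDerivAt (fun y => F (c • y)) ((fderiv ℝ F (c • x)).comp (c • ContinuousLinearMap.id ℝ E)) x := by
    have hs : HasFDerivAt (fun y : E => c • y) (c • ContinuousLinearMap.id ℝ E) x :=
      (hasFDerivAt_id x).const_smul c
    exact hd'.hasFDerivAt.comp x hs
  have h2 : HasFDerivAt (fun y => c • F y) (c • fderiv ℝ F x) x := hd.hasFDerivAt.const_smul c
  have h3 : (fun y => F (c • y)) = fun y => c • F y := by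
    funext y; exact hF c hc y
  rw [h3] at h1
  have h4 := h1.unique h2
  ext v
  have h5 := congrArg (fun L : E →L[ℝ] Z => L v) h4
  simp only [ContinuousLinearMap.comp_apply, smul_apply,
    ContinuousLinearMap.id_apply, map_smul] at h5
  exact smul_right_injective Z hc.ne' h5

theorem fderiv_self_of_homog {F : E → Z} (hF : ∀ c : ℝ, 0 < c → ∀ x, F (c • x) = c • F x)
    {x : E} (hd : DifferentiableAt ℝ F x) : fderiv ℝ F x x = F x := by
  have h1 : HasDerivAt (fun t : ℝ => t • x) x 1 := by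
    simpa using (hasDerivAt_id (1:ℝ)).smul_const x
  have h2 : HasDerivAt (fun t : ℝ => F (t • x)) (fderiv ℝ F x x) 1 := by
    have hd1 : HasFDerivAt F (fderiv ℝ F x) ((1:ℝ) • x) := by simpa using hd.hasFDerivAt
    exact hd1.comp_hasDerivAt (1:ℝ) h1
  have h3 : HasDerivAt (fun t : ℝ => t • F x) (F x) 1 := by
    simpa using (hasDerivAt_id (1:ℝ)).smul_const (F x)
  have h4 : (fun t : ℝ => F (t • x)) =ᶠ[𝓝 1] fun t => t • F x := by
    filter_upwards [lt_mem_nhds (show (0:ℝ) < 1 by norm_num)] with t ht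
    exact hF t ht x
  exact (h2.congr_of_eventuallyEq h4.symm).unique h3

/-- Second derivative of a homogeneous map annihilates the base point. -/
theorem fderiv_fderiv_self_of_homog {F : E → Z} (hF : ∀ c : ℝ, 0 < c → ∀ x, F (c • x) = c • F x)
    {x : E} (hd : ∀ᶠ y in 𝓝 x, DifferentiableAt ℝ F y)
    (hd2 : DifferentiableAt ℝ (fderiv ℝ F) x) : fderiv ℝ (fderiv ℝ F) x x = 0 := by
  have h1 : HasDerivAt (fun t : ℝ => t • x) x 1 := by
    simpa using (hasDerivAt_id (1:ℝ)).smul_const x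
  have h2 : HasDerivAt (fun t : ℝ => fderiv ℝ F (t • x)) (fderiv ℝ (fderiv ℝ F) x x) 1 := by
    have hd1 : HasFDerivAt (fderiv ℝ F) (fderiv ℝ (fderiv ℝ F) x) ((1:ℝ) • x) := by
      simpa using hd2.hasFDerivAt
    exact hd1.comp_hasDerivAt (1:ℝ) h1
  have hcont : ContinuousAt (fun t : ℝ => t • x) 1 := h1.continuousAt
  have h3 : (fun t : ℝ => fderiv ℝ F (t • x)) =ᶠ[𝓝 1] fun _ => fderiv ℝ F x := by
    have hd' : ∀ᶠ t : ℝ in 𝓝 1, DifferentiableAt ℝ F (t • x) := by
      have hx : (fun t : ℝ => t • x) 1 = x := one_smul _ _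
      have := hcont.eventually (p := fun y => DifferentiableAt ℝ F y) (by rw [hx]; exact hd)
      exact this
    filter_upwards [lt_mem_nhds (show (0:ℝ) < 1 by norm_num), hd'] with t ht ht'
    exact fderiv_smul_of_homog hF ht hd.self_of_nhds ht'
  have h4 := h2.congr_of_eventuallyEq h3.symm
  exact h4.unique (hasDerivAt_const _ _)

/-- Scaling of the second derivative of a homogeneous map. -/
theorem fderiv_fderiv_smul_of_homog {F : E → Z} (hF : ∀ c : ℝ, 0 < c → ∀ x, F (c • x) = c • F x)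
    {c : ℝ} (hc : 0 < c) {x : E} (hd : ∀ᶠ y in 𝓝 x, DifferentiableAt ℝ F y)
    (hd' : ∀ᶠ y in 𝓝 (c • x), DifferentiableAt ℝ F y)
    (hd2 : DifferentiableAt ℝ (fderiv ℝ F) x) (hd2' : DifferentiableAt ℝ (fderiv ℝ F) (c • x)) :
    c • fderiv ℝ (fderiv ℝ F) (c • x) = fderiv ℝ (fderiv ℝ F) x := by
  have hs : HasFDerivAt (fun y : E => c • y) (c • ContinuousLinearMap.id ℝ E) x :=
    (hasFDerivAt_id x).const_smul c
  have h1 : HasFDerivAt (fun y => fderiv ℝ F (c • y))
      ((fderiv ℝ (fderiv ℝ F) (c • x)).comp (c • ContinuousLinearMap.id ℝ E)) x :=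
    hd2'.hasFDerivAt.comp x hs
  have h3 : (fun y => fderiv ℝ F (c • y)) =ᶠ[𝓝 x] fderiv ℝ F := by
    have hd'' : ∀ᶠ y in 𝓝 x, DifferentiableAt ℝ F (c • y) :=
      hs.continuousAt.eventually (p := fun y => DifferentiableAt ℝ F y) hd'
    filter_upwards [hd, hd''] with y hy hy'
    exact fderiv_smul_of_homog hF hc hy hy'
  have h4 := (h1.congr_of_eventuallyEq h3.symm).unique hd2.hasFDerivAt
  rw [← h4]
  ext v
  simp only [ContinuousLinearMap.comp_apply, smul_apply,
    ContinuousLinearMap.id_apply, map_smul]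

end homog

section nrm

variable {E : Type*} [NormedAddCommGroup E] [NormedSpace ℝ E]

/-- The derivative of the norm. -/
noncomputable abbrev dn (x : E) : E →L[ℝ] ℝ := fderiv ℝ (norm : E → ℝ) x

/-- The second derivative of the norm. -/
noncomputable abbrev d2n (x : E) : E →L[ℝ] E →L[ℝ] ℝ := fderiv ℝ (fderiv ℝ (norm : E → ℝ)) x

theorem norm_homog : ∀ c : ℝ, 0 < c → ∀ x : E, ‖c • x‖ = c • ‖x‖ := by
  intro c hc x
  rw [norm_smul, Real.norm_of_nonneg hc.le, smul_eq_mul]

variable (hs : ContDiffOn ℝ 3 (norm : E → ℝ) {0}ᶜ)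
include hs

theorem cda {x : E} (hx : x ≠ 0) : ContDiffAt ℝ 3 (norm : E → ℝ) x :=
  hs.contDiffAt (isOpen_compl_singleton.mem_nhds hx)

theorem dn_hasF {x : E} (hx : x ≠ 0) : HasFDerivAt (norm : E → ℝ) (dn x) x :=
  ((cda hs hx).differentiableAt (by norm_num)).hasFDerivAt

theorem cda_dn {x : E} (hx : x ≠ 0) : ContDiffAt ℝ 2 (dn : E → E →L[ℝ] ℝ) x :=
  (cda hs hx).fderiv_right (by norm_num)

theorem dn_hasF' {x : E} (hx : x ≠ 0) : HasFDerivAt (dn : E → E →L[ℝ] ℝ) (d2n x) x :=
  ((cda_dn hs hx).differentiableAt (by norm_num)).hasFDerivAt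

theorem dn_contAt {x : E} (hx : x ≠ 0) : ContinuousAt (dn : E → E →L[ℝ] ℝ) x :=
  (dn_hasF' hs hx).continuousAt

omit hs [NormedSpace ℝ E] in
theorem ev_ne {x : E} (hx : x ≠ 0) : ∀ᶠ y in 𝓝 x, y ≠ 0 := isOpen_compl_singleton.mem_nhds hx

theorem dn_smul {c : ℝ} (hc : 0 < c) {x : E} (hx : x ≠ 0) : dn (c • x) = dn x :=
  fderiv_smul_of_homog norm_homog hc (dn_hasF hs hx).differentiableAt
    (dn_hasF hs (smul_ne_zero hc.ne' hx)).differentiableAt

theorem dn_self {x : E} (hx : x ≠ 0) : dn x x = ‖x‖ :=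
  fderiv_self_of_homog norm_homog (dn_hasF hs hx).differentiableAt

theorem dn_neg {x : E} (hx : x ≠ 0) : dn (-x) = - dn x := by
  have h1 : HasFDerivAt (fun y : E => ‖-y‖) ((dn (-x)).comp (-ContinuousLinearMap.id ℝ E)) x := by
    have hs' : HasFDerivAt (fun y : E => -y) (-ContinuousLinearMap.id ℝ E) x :=
      (hasFDerivAt_id x).neg
    exact (dn_hasF hs (neg_ne_zero.mpr hx)).comp x hs'
  have h2 : (fun y : E => ‖-y‖) = fun y => ‖y‖ := by funext y; exact norm_neg y
  rw [h2] at h1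
  have h3 := h1.unique (dn_hasF hs hx)
  ext v
  have h5 := congrArg (fun L : E →L[ℝ] ℝ => L v) h3
  simp only [ContinuousLinearMap.comp_apply, neg_apply,
    ContinuousLinearMap.id_apply, map_neg] at h5
  simp only [neg_apply]
  linarith

omit hs in
theorem dn_le (x y : E) : |dn x y| ≤ ‖y‖ := by
  have h1 : ‖dn x‖ ≤ 1 := by
    have := norm_fderiv_le_of_lipschitz ℝ (f := (norm : E → ℝ)) (x₀ := x) lipschitzWith_one_norm
    simpa using this
  calc |dn x y| = ‖dn x y‖ := (Real.norm_eq_abs _).symm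
    _ ≤ ‖dn x‖ * ‖y‖ := (dn x).le_opNorm y
    _ ≤ 1 * ‖y‖ := by gcongr
    _ = ‖y‖ := one_mul _

theorem d2n_self {x : E} (hx : x ≠ 0) : d2n x x = 0 := by
  refine fderiv_fderiv_self_of_homog norm_homog ?_ (dn_hasF' hs hx).differentiableAt
  filter_upwards [ev_ne hx] with y hy
  exact (dn_hasF hs hy).differentiableAt

theorem d2n_smul {c : ℝ} (hc : 0 < c) {x : E} (hx : x ≠ 0) : c • d2n (c • x) = d2n x := by
  have hx' := smul_ne_zero hc.ne' hx
  refine fderiv_fderiv_smul_of_homog norm_homog hc ?_ ?_ (dn_hasF' hs hx).differentiableAt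
    (dn_hasF' hs hx').differentiableAt
  · filter_upwards [ev_ne hx] with y hy
    exact (dn_hasF hs hy).differentiableAt
  · filter_upwards [ev_ne hx'] with y hy
    exact (dn_hasF hs hy).differentiableAt

theorem d2n_symm {x : E} (hx : x ≠ 0) (a b : E) : d2n x a b = d2n x b a := by
  have h := (cda hs hx).isSymmSndFDerivAt (by
    have : minSmoothness ℝ 2 = 2 := by simp
    rw [this]; norm_num)
  exact h a b

/-- The convexity of the norm gives positive semidefiniteness of its second derivative. -/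
theorem d2n_nonneg {x : E} (hx : x ≠ 0) (y : E) : 0 ≤ d2n x y y := by
  have h1 : HasDerivAt (fun t : ℝ => x + t • y) y 0 := by
    simpa using ((hasDerivAt_id (0:ℝ)).smul_const y).const_add x
  have h0 : HasFDerivAt (dn : E → E →L[ℝ] ℝ) (d2n x) (x + (0:ℝ) • y) := by
    simpa using dn_hasF' hs hx
  have h2 : HasDerivAt (fun t : ℝ => dn (x + t • y)) (d2n x y) 0 :=
    h0.comp_hasDerivAt (0:ℝ) h1
  have h3 : HasDerivAt (fun t : ℝ => dn (x + t • y) y) (d2n x y y) 0 := by
    have := h2.clm_apply (hasDerivAt_const (0:ℝ) y)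
    simpa using this
  have h4 := h3.tendsto_slope_zero_right
  refine ge_of_tendsto h4 ?_
  have hev : ∀ᶠ t : ℝ in 𝓝[>] 0, x + t • y ≠ 0 := by
    have hc : ContinuousAt (fun t : ℝ => x + t • y) 0 := h1.continuousAt
    have : ∀ᶠ t : ℝ in 𝓝 0, x + t • y ≠ 0 :=
      hc.eventually_ne (by simpa using hx)
    exact this.filter_mono nhdsWithin_le_nhds
  filter_upwards [hev, self_mem_nhdsWithin] with t ht ht0
  have ht0' : (0:ℝ) < t := ht0
  simp only [zero_add, zero_smul, add_zero, smul_eq_mul]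
  have hself1 := dn_self hs ht
  have hself2 := dn_self hs hx
  have hle1 := abs_le.mp (dn_le (x + t • y) x)
  have hle2 := abs_le.mp (dn_le x (x + t • y))
  have hmono : 0 ≤ t * (dn (x + t • y) y - dn x y) := by
    have e1 : dn (x + t • y) (x + t • y) = dn (x + t • y) x + t * dn (x + t • y) y := by
      simp [map_add, map_smul]
    have e2 : dn x (x + t • y) = dn x x + t * dn x y := by
      simp [map_add, map_smul]
    nlinarith [hle1.2, hle2.2]
  have : 0 ≤ t⁻¹ * (t * (dn (x + t • y) y - dn x y)) := by positivity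
  rw [← mul_assoc, inv_mul_cancel₀ ht0'.ne', one_mul] at this
  have h5 : 0 ≤ t⁻¹ := by positivity
  have h6 : 0 ≤ t⁻¹ * (dn (x + t • y) y - dn x y) := mul_nonneg h5 this
  simpa using h6

end nrm

end Vale.Agent.P084
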