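import Vale.Agent.P084.Radial

/-!
The differential identities of the radial extension of an isometry between unit spheres
(helper for P084).
-/

namespace Vale.Agent.P084

open Topology Filter Set Module Metric
open scoped ContDiff

variable {X Y : Type*} [NormedAddCommGroup X] [NormedSpace ℝ X] [NormedAddCommGroup Y]
  [NormedSpace ℝ Y]

/-- Equal norms of increments give equal norms of derivatives. -/
theorem norm_deriv_eq {E1 E2 : Type*} [NormedAddCommGroup E1] [NormedSpace ℝ E1]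
    [NormedAddCommGroup E2] [NormedSpace ℝ E2] {p : ℝ → E1} {q : ℝ → E2} {p' : E1} {q' : E2}
    (hp : HasDerivAt p p' 0) (hq : HasDerivAt q q' 0)
    (h : ∀ᶠ t in 𝓝 (0:ℝ), ‖p t - p 0‖ = ‖q t - q 0‖) : ‖p'‖ = ‖q'‖ := by
  have h1 := hp.tendsto_slope_zero.norm
  have h2 := hq.tendsto_slope_zero.norm
  refine tendsto_nhds_unique h1 (h2.congr' ?_)
  have h3 : ∀ᶠ t in 𝓝[≠] (0:ℝ), ‖p t - p 0‖ = ‖q t - q 0‖ := h.filter_mono nhdsWithin_le_nhds
  filter_upwards [h3] with t ht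
  simp only [zero_add, norm_smul]
  rw [ht]

section rad

variable (hXs : ContDiffOn ℝ 3 (norm : X → ℝ) {0}ᶜ)
include hXs

theorem line_ne {x : X} (hx : x ≠ 0) (u : X) : ∀ᶠ t : ℝ in 𝓝 0, x + t • u ≠ 0 := by
  have hc : ContinuousAt (fun t : ℝ => x + t • u) 0 := by fun_prop
  exact hc.eventually_ne (by simpa using hx)

theorem rad_line {x u : X} (hx : ‖x‖ = 1) (hu : dn x u = 0) :
    HasDerivAt (fun t : ℝ => rad (x + t • u)) u 0 := by
  have hx0 : x ≠ 0 := by
    intro h; rw [h] at hx; simp at hx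
  have hl : HasDerivAt (fun t : ℝ => x + t • u) u 0 := by
    simpa using ((hasDerivAt_id (0:ℝ)).smul_const u).const_add x
  have h0 : HasFDerivAt (norm : X → ℝ) (dn x) (x + (0:ℝ) • u) := by
    simpa using dn_hasF hXs hx0
  have hn : HasDerivAt (fun t : ℝ => ‖x + t • u‖) (dn x u) 0 := h0.comp_hasDerivAt (0:ℝ) hl
  rw [hu] at hn
  have hinv := hn.fun_inv (by simp [hx])
  have h5 := hinv.fun_smul hl
  have e : (fun t : ℝ => rad (x + t • u)) = fun t : ℝ => ‖x + t • u‖⁻¹ • (x + t • u) := rfl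
  rw [e]
  convert h5 using 1
  simp [hx]

end rad

section main

variable (hXs : ContDiffOn ℝ 3 (norm : X → ℝ) {0}ᶜ) (hYs : ContDiffOn ℝ 3 (norm : Y → ℝ) {0}ᶜ)
  {F : X → Y}
  (hFc : ∀ x : X, x ≠ 0 → ContDiffAt ℝ 3 F x)
  (hFh : ∀ c : ℝ, 0 < c → ∀ x, F (c • x) = c • F x)
  (hFn : ∀ x, ‖F x‖ = ‖x‖)
  (hFd : ∀ x z, ‖x‖ = 1 → ‖z‖ = 1 → ‖F x - F z‖ = ‖x - z‖)
  (hFa : ∀ x z, ‖x‖ = 1 → ‖z‖ = 1 → ‖F x + F z‖ = ‖x + z‖)

section basic

include hFc

theorem dF_hasF {x : X} (hx : x ≠ 0) : HasFDerivAt F (fderiv ℝ F x) x :=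
  ((hFc x hx).differentiableAt (by norm_num)).hasFDerivAt

theorem cda_dF {x : X} (hx : x ≠ 0) : ContDiffAt ℝ 2 (fderiv ℝ F) x :=
  (hFc x hx).fderiv_right (by norm_num)

theorem cda_d2F {x : X} (hx : x ≠ 0) : ContDiffAt ℝ 1 (fderiv ℝ (fderiv ℝ F)) x :=
  (cda_dF hFc hx).fderiv_right (by norm_num)

theorem dF_hasF' {x : X} (hx : x ≠ 0) : HasFDerivAt (fderiv ℝ F) (fderiv ℝ (fderiv ℝ F) x) x :=
  ((cda_dF hFc hx).differentiableAt (by norm_num)).hasFDerivAt

theorem d2F_hasF' {x : X} (hx : x ≠ 0) :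
    HasFDerivAt (fderiv ℝ (fderiv ℝ F)) (fderiv ℝ (fderiv ℝ (fderiv ℝ F)) x) x :=
  ((cda_d2F hFc hx).differentiableAt (by norm_num)).hasFDerivAt

theorem d2F_symm {x : X} (hx : x ≠ 0) (a b : X) :
    fderiv ℝ (fderiv ℝ F) x a b = fderiv ℝ (fderiv ℝ F) x b a := by
  have h := (hFc x hx).isSymmSndFDerivAt (by
    have : minSmoothness ℝ 2 = 2 := by simp
    rw [this]; norm_num)
  exact h a b

theorem d3F_symm {x : X} (hx : x ≠ 0) (a b : X) :
    fderiv ℝ (fderiv ℝ (fderiv ℝ F)) x a b = fderiv ℝ (fderiv ℝ (fderiv ℝ F)) x b a := by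
  have h := (cda_dF hFc hx).isSymmSndFDerivAt (by
    have : minSmoothness ℝ 2 = 2 := by simp
    rw [this])
  exact h a b

theorem ev_diff {x : X} (hx : x ≠ 0) : ∀ᶠ y in 𝓝 x, DifferentiableAt ℝ F y := by
  filter_upwards [ev_ne hx] with y hy
  exact (dF_hasF hFc hy).differentiableAt

include hFh

theorem dF_smul {c : ℝ} (hc : 0 < c) {x : X} (hx : x ≠ 0) :
    fderiv ℝ F (c • x) = fderiv ℝ F x :=
  fderiv_smul_of_homog hFh hc (dF_hasF hFc hx).differentiableAt
    (dF_hasF hFc (smul_ne_zero hc.ne' hx)).differentiableAt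

theorem dF_self {x : X} (hx : x ≠ 0) : fderiv ℝ F x x = F x :=
  fderiv_self_of_homog hFh (dF_hasF hFc hx).differentiableAt

theorem d2F_self {x : X} (hx : x ≠ 0) : fderiv ℝ (fderiv ℝ F) x x = 0 :=
  fderiv_fderiv_self_of_homog hFh (ev_diff hFc hx) (dF_hasF' hFc hx).differentiableAt

theorem d2F_smul {c : ℝ} (hc : 0 < c) {x : X} (hx : x ≠ 0) :
    c • fderiv ℝ (fderiv ℝ F) (c • x) = fderiv ℝ (fderiv ℝ F) x :=
  fderiv_fderiv_smul_of_homog hFh hc (ev_diff hFc hx) (ev_diff hFc (smul_ne_zero hc.ne' hx))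
    (dF_hasF' hFc hx).differentiableAt
    (dF_hasF' hFc (smul_ne_zero hc.ne' hx)).differentiableAt

end basic

section ident

include hFn in
omit [NormedSpace ℝ X] [NormedSpace ℝ Y] in
theorem F_ne {x : X} (hx : x ≠ 0) : F x ≠ 0 := by
  rw [← norm_ne_zero_iff, hFn]
  exact norm_ne_zero_iff.mpr hx

include hXs hYs hFc hFn

/-- (c): the first order identity. -/
theorem dn_comp {x : X} (hx : x ≠ 0) (a : X) : dn (F x) (fderiv ℝ F x a) = dn x a := by
  have h1 : HasFDerivAt (fun w => ‖F w‖) ((dn (F x)).comp (fderiv ℝ F x)) x :=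
    (dn_hasF hYs (F_ne hFn hx)).comp x (dF_hasF hFc hx)
  have h2 : (fun w => ‖F w‖) = norm := funext hFn
  rw [h2] at h1
  have := h1.unique (dn_hasF hXs hx)
  exact DFunLike.congr_fun this a

/-- (d): the second order identity. -/
theorem second {x : X} (hx : x ≠ 0) (a b : X) :
    d2n (F x) (fderiv ℝ F x a) (fderiv ℝ F x b) + dn (F x) (fderiv ℝ (fderiv ℝ F) x a b)
      = d2n x a b := by
  have hdnF : HasFDerivAt (fun w => dn (F w)) ((d2n (F x)).comp (fderiv ℝ F x)) x :=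
    (dn_hasF' hYs (F_ne hFn hx)).comp x (dF_hasF hFc hx)
  have h1 := hdnF.clm_apply ((dF_hasF' hFc hx).clm_apply (hasFDerivAt_const b x))
  have h2 := (dn_hasF' hXs hx).clm_apply (hasFDerivAt_const b x)
  have h3 : (fun w => dn (F w) (fderiv ℝ F w b)) =ᶠ[𝓝 x] (fun w => dn w b) := by
    filter_upwards [ev_ne hx] with w hw
    exact dn_comp hXs hYs hFc hFn hw b
  have h4 := (h1.congr_of_eventuallyEq h3.symm).unique h2
  have := DFunLike.congr_fun h4 a
  simp only [add_apply, ContinuousLinearMap.comp_apply,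
    ContinuousLinearMap.flip_apply] at this
  simp at this
  linarith

end ident

section unit

include hXs hFc hFd

/-- (e) for unit vectors: the derivative is isometric on the tangent space. -/
theorem norm_dF_unit {x u : X} (hx : ‖x‖ = 1) (hu : dn x u = 0) : ‖fderiv ℝ F x u‖ = ‖u‖ := by
  have hx0 : x ≠ 0 := by
    intro h; rw [h] at hx; simp at hx
  have hr := rad_line hXs hx hu
  have hr0 : rad (x + (0:ℝ) • u) = x := by simpa using rad_of_unit hx
  have hF0 : HasFDerivAt F (fderiv ℝ F x) (rad (x + (0:ℝ) • u)) := by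
    rw [hr0]; exact dF_hasF hFc hx0
  have hp : HasDerivAt (fun t : ℝ => F (rad (x + t • u))) (fderiv ℝ F x u) 0 :=
    hF0.comp_hasDerivAt (0:ℝ) hr
  refine norm_deriv_eq hp hr ?_
  filter_upwards [line_ne hXs hx0 u] with t ht
  exact hFd _ _ (norm_rad ht) (by rw [hr0]; exact hx)

include hFh

/-- (e): the derivative is isometric on the kernel of the derivative of the norm. -/
theorem norm_dF {w y : X} (hw : w ≠ 0) (hy : dn w y = 0) : ‖fderiv ℝ F w y‖ = ‖y‖ := by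
  have hc : (0:ℝ) < ‖w‖⁻¹ := by positivity [norm_pos_iff.mpr hw]
  have h1 : fderiv ℝ F (rad w) = fderiv ℝ F w := dF_smul hFc hFh hc hw
  have h2 : dn (rad w) = dn w := dn_smul hXs hc hw
  rw [← h1]
  refine norm_dF_unit hXs hFc hFd (norm_rad hw) ?_
  rw [h2, hy]

end unit

section chordal

include hXs hYs hFc hFa

/-- (f): differentiating the sum norm identity. -/
theorem chord_deriv {x u b : X} (hx : ‖x‖ = 1) (hu : dn x u = 0) (hb : ‖b‖ = 1) (hxb : x + b ≠ 0) :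
    dn (F x + F b) (fderiv ℝ F x u) = dn (x + b) u := by
  have hx0 : x ≠ 0 := by
    intro h; rw [h] at hx; simp at hx
  have hr := rad_line hXs hx hu
  have hr0 : rad (x + (0:ℝ) • u) = x := by simpa using rad_of_unit hx
  have hF0 : HasFDerivAt F (fderiv ℝ F x) (rad (x + (0:ℝ) • u)) := by
    rw [hr0]; exact dF_hasF hFc hx0
  have hp : HasDerivAt (fun t : ℝ => F (rad (x + t • u))) (fderiv ℝ F x u) 0 :=
    hF0.comp_hasDerivAt (0:ℝ) hr
  have hsum : F x + F b ≠ 0 := by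
    rw [← norm_ne_zero_iff, hFa x b hx hb]
    exact norm_ne_zero_iff.mpr hxb
  have hl : HasDerivAt (fun t : ℝ => ‖F (rad (x + t • u)) + F b‖)
      (dn (F x + F b) (fderiv ℝ F x u)) 0 := by
    have h0 : HasFDerivAt (norm : Y → ℝ) (dn (F x + F b)) (F (rad (x + (0:ℝ) • u)) + F b) := by
      rw [hr0]; exact dn_hasF hYs hsum
    exact h0.comp_hasDerivAt (0:ℝ) (hp.add_const _)
  have hrr : HasDerivAt (fun t : ℝ => ‖rad (x + t • u) + b‖) (dn (x + b) u) 0 := by
    have h0 : HasFDerivAt (norm : X → ℝ) (dn (x + b)) (rad (x + (0:ℝ) • u) + b) := by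
      rw [hr0]; exact dn_hasF hXs hxb
    exact h0.comp_hasDerivAt (0:ℝ) (hr.add_const _)
  refine (hl.congr_of_eventuallyEq ?_).unique hrr
  filter_upwards [line_ne hXs hx0 u] with t ht
  exact (hFa _ _ (norm_rad ht) hb).symm

include hFn

/-- (g): the second fundamental forms agree on tangent vectors. -/
theorem curv_eq {x u v : X} (hx : ‖x‖ = 1) (hu : dn x u = 0) (hv : dn x v = 0) :
    d2n (F x) (fderiv ℝ F x v) (fderiv ℝ F x u) = d2n x v u := by
  have hx0 : x ≠ 0 := by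
    intro h; rw [h] at hx; simp at hx
  have hFx0 : F x ≠ 0 := F_ne hFn hx0
  have hr := rad_line hXs hx hv
  have hr0 : rad (x + (0:ℝ) • v) = x := by simpa using rad_of_unit hx
  have hF0 : HasFDerivAt F (fderiv ℝ F x) (rad (x + (0:ℝ) • v)) := by
    rw [hr0]; exact dF_hasF hFc hx0
  have hp : HasDerivAt (fun s : ℝ => F (rad (x + s • v))) (fderiv ℝ F x v) 0 :=
    hF0.comp_hasDerivAt (0:ℝ) hr
  have e1 : F x + F x = (2:ℝ) • F x := (two_smul ℝ _).symm
  have e2 : x + x = (2:ℝ) • x := (two_smul ℝ _).symm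
  have h2 : (0:ℝ) < 2 := by norm_num
  have hl : HasDerivAt (fun s : ℝ => dn (F x + F (rad (x + s • v))) (fderiv ℝ F x u))
      (d2n (F x + F x) (fderiv ℝ F x v) (fderiv ℝ F x u)) 0 := by
    have h0 : HasFDerivAt (dn : Y → Y →L[ℝ] ℝ) (d2n (F x + F x))
        (F x + F (rad (x + (0:ℝ) • v))) := by
      rw [hr0]; exact dn_hasF' hYs (by rw [e1]; exact smul_ne_zero h2.ne' hFx0)
    have h3 : HasDerivAt (fun s : ℝ => dn (F x + F (rad (x + s • v))))
        (d2n (F x + F x) (fderiv ℝ F x v)) 0 :=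
      h0.comp_hasDerivAt (0:ℝ) (hp.const_add _)
    simpa using h3.clm_apply (hasDerivAt_const (0:ℝ) (fderiv ℝ F x u))
  have hrr : HasDerivAt (fun s : ℝ => dn (x + rad (x + s • v)) u) (d2n (x + x) v u) 0 := by
    have h0 : HasFDerivAt (dn : X → X →L[ℝ] ℝ) (d2n (x + x)) (x + rad (x + (0:ℝ) • v)) := by
      rw [hr0]; exact dn_hasF' hXs (by rw [e2]; exact smul_ne_zero h2.ne' hx0)
    have h3 : HasDerivAt (fun s : ℝ => dn (x + rad (x + s • v))) (d2n (x + x) v) 0 :=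
      h0.comp_hasDerivAt (0:ℝ) (hr.const_add _)
    simpa using h3.clm_apply (hasDerivAt_const (0:ℝ) u)
  have hev : ∀ᶠ s : ℝ in 𝓝 0, x + rad (x + s • v) ≠ 0 := by
    have hc : ContinuousAt (fun s : ℝ => x + rad (x + s • v)) 0 :=
      (hr.const_add x).continuousAt
    refine hc.eventually_ne ?_
    rw [hr0, e2]
    exact smul_ne_zero h2.ne' hx0
  have heq : (fun s : ℝ => dn (F x + F (rad (x + s • v))) (fderiv ℝ F x u)) =ᶠ[𝓝 0]
      fun s : ℝ => dn (x + rad (x + s • v)) u := by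
    filter_upwards [hev, line_ne hXs hx0 v] with s hs hs'
    exact chord_deriv hXs hYs hFc hFa hx hu (norm_rad hs') hs
  have h5 := (hl.congr_of_eventuallyEq heq.symm).unique hrr
  have h6 := d2n_smul hYs h2 hFx0
  have h7 := d2n_smul hXs h2 hx0
  rw [← e1] at h6
  rw [← e2] at h7
  rw [← h6, ← h7]
  simp only [smul_apply, smul_eq_mul]
  rw [h5]

end chordal

section third

include hXs in
/-- The tangent projection. -/
theorem tang {x : X} (hx : ‖x‖ = 1) (a : X) : dn x (a - (dn x a) • x) = 0 := by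
  have hx0 : x ≠ 0 := by
    intro h; rw [h] at hx; simp at hx
  simp [map_sub, map_smul, dn_self hXs hx0, hx]

include hFc hFh in
/-- `d2F` only depends on tangential parts. -/
theorem d2F_decomp {x : X} (hx : x ≠ 0) (α β : ℝ) (a b : X) :
    fderiv ℝ (fderiv ℝ F) x a b = fderiv ℝ (fderiv ℝ F) x (a - α • x) (b - β • x) := by
  have h1 := d2F_self hFc hFh hx
  have h2 : fderiv ℝ (fderiv ℝ F) x (a - α • x) x = 0 := by
    rw [d2F_symm hFc hx, h1]; rfl
  rw [map_sub (fderiv ℝ (fderiv ℝ F) x (a - α • x)), map_smul, h2]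
  simp [map_sub, map_smul, h1]

include hXs hYs hFc hFh hFn hFa

/-- Unit case of (h). -/
theorem dn_d2F_unit {x a b : X} (hx : ‖x‖ = 1) (ha : dn x a = 0) (hb : dn x b = 0) :
    dn (F x) (fderiv ℝ (fderiv ℝ F) x a b) = 0 := by
  have hx0 : x ≠ 0 := by
    intro h; rw [h] at hx; simp at hx
  have h1 := second hXs hYs hFc hFn hx0 a b
  have h2 := curv_eq hXs hYs hFc hFn hFa hx hb ha
  linarith

/-- (h): the second derivative of the extension is tangential. -/
theorem dn_d2F {x : X} (hx : x ≠ 0) (a b : X) :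
    dn (F x) (fderiv ℝ (fderiv ℝ F) x a b) = 0 := by
  have hc : (0:ℝ) < ‖x‖⁻¹ := by positivity [norm_pos_iff.mpr hx]
  have h1 : ‖x‖⁻¹ • fderiv ℝ (fderiv ℝ F) (rad x) = fderiv ℝ (fderiv ℝ F) x :=
    d2F_smul hFc hFh hc hx
  have h2 : F (rad x) = ‖x‖⁻¹ • F x := hFh _ hc x
  have h3 : dn (F (rad x)) = dn (F x) := by
    rw [h2]
    exact dn_smul hYs hc (F_ne hFn hx)
  have hr := norm_rad hx
  have hr0 : rad x ≠ 0 := by
    intro h; rw [h] at hr; simp at hr
  rw [← h1, ← h3]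
  simp only [smul_apply, map_smul, smul_eq_mul]
  rw [d2F_decomp hFc hFh hr0 (dn (rad x) a) (dn (rad x) b) a b,
    dn_d2F_unit hXs hYs hFc hFh hFn hFa hr (tang hXs hr a) (tang hXs hr b)]
  simp

/-- (i): total symmetry. -/
theorem T_symm {x : X} (hx : x ≠ 0) (a b c : X) :
    d2n (F x) (fderiv ℝ F x c) (fderiv ℝ (fderiv ℝ F) x a b)
      = d2n (F x) (fderiv ℝ F x a) (fderiv ℝ (fderiv ℝ F) x c b) := by
  have key : ∀ a b c : X, d2n (F x) (fderiv ℝ F x c) (fderiv ℝ (fderiv ℝ F) x a b)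
      + dn (F x) (fderiv ℝ (fderiv ℝ (fderiv ℝ F)) x c a b) = 0 := by
    intro a b c
    have hdnF : HasFDerivAt (fun w => dn (F w)) ((d2n (F x)).comp (fderiv ℝ F x)) x :=
      (dn_hasF' hYs (F_ne hFn hx)).comp x (dF_hasF hFc hx)
    have hd2 := ((d2F_hasF' hFc hx).clm_apply (hasFDerivAt_const a x)).clm_apply
      (hasFDerivAt_const b x)
    have h1 := hdnF.clm_apply hd2
    have h2 : (fun w => dn (F w) (fderiv ℝ (fderiv ℝ F) w a b)) =ᶠ[𝓝 x] fun _ => (0:ℝ) := by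
      filter_upwards [ev_ne hx] with w hw
      exact dn_d2F hXs hYs hFc hFh hFn hFa hw a b
    have h3 := (h1.congr_of_eventuallyEq h2.symm).unique (hasFDerivAt_const (0:ℝ) x)
    have h4 := DFunLike.congr_fun h3 c
    simp at h4
    linarith
  have h1 := key a b c
  have h2 := key c b a
  rw [d3F_symm hFc hx c a] at h1
  linarith

end third

section tangential

include hXs hYs hFc hFh hFd

/-- Derivative of the norm of the tangent map on tangent vectors. -/
theorem dn_dF_tangent {x u c : X} (hx : ‖x‖ = 1) (hu : dn x u = 0) (hc : dn x c = 0)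
    (hu0 : u ≠ 0) : dn (fderiv ℝ F x u) (fderiv ℝ F x c) = dn u c := by
  have hx0 : x ≠ 0 := by
    intro h; rw [h] at hx; simp at hx
  have hnorm : ∀ s : ℝ, ‖fderiv ℝ F x (u + s • c)‖ = ‖u + s • c‖ := by
    intro s
    refine norm_dF hXs hFc hFh hFd hx0 ?_
    simp [map_add, map_smul, hu, hc]
  have hline : HasDerivAt (fun s : ℝ => u + s • c) c 0 := by
    simpa using ((hasDerivAt_id (0:ℝ)).smul_const c).const_add u
  have hl : HasDerivAt (fun s : ℝ => fderiv ℝ F x (u + s • c)) (fderiv ℝ F x c) 0 :=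
    (fderiv ℝ F x).hasFDerivAt.comp_hasDerivAt (0:ℝ) hline
  have hu1 : fderiv ℝ F x u ≠ 0 := by
    intro h
    have := norm_dF hXs hFc hFh hFd hx0 hu
    rw [h, norm_zero] at this
    exact hu0 (norm_eq_zero.mp this.symm)
  have hl2 : HasDerivAt (fun s : ℝ => ‖fderiv ℝ F x (u + s • c)‖)
      (dn (fderiv ℝ F x u) (fderiv ℝ F x c)) 0 := by
    have h0 : HasFDerivAt (norm : Y → ℝ) (dn (fderiv ℝ F x u)) (fderiv ℝ F x (u + (0:ℝ) • c)) := by
      simpa using dn_hasF hYs hu1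
    exact h0.comp_hasDerivAt (0:ℝ) hl
  have hr2 : HasDerivAt (fun s : ℝ => ‖u + s • c‖) (dn u c) 0 := by
    have h0 : HasFDerivAt (norm : X → ℝ) (dn u) (u + (0:ℝ) • c) := by
      simpa using dn_hasF hXs hu0
    exact h0.comp_hasDerivAt (0:ℝ) hline
  have h3 : (fun s : ℝ => ‖fderiv ℝ F x (u + s • c)‖) = fun s : ℝ => ‖u + s • c‖ := funext hnorm
  rw [h3] at hl2
  exact hl2.unique hr2

/-- (j): orthogonality relation coming from the moving tangent frame. -/
theorem moving_frame {x u v : X} (hx : ‖x‖ = 1) (hu : dn x u = 0) (hv : dn x v = 0) (hu0 : u ≠ 0)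
    (huv : d2n x v u = 0) : dn (fderiv ℝ F x u) (fderiv ℝ (fderiv ℝ F) x v u) = 0 := by
  have hx0 : x ≠ 0 := by
    intro h; rw [h] at hx; simp at hx
  have hL : HasDerivAt (fun s : ℝ => x + s • v) v 0 := by
    simpa using ((hasDerivAt_id (0:ℝ)).smul_const v).const_add x
  have hL0 : x + (0:ℝ) • v = x := by simp
  have hA : HasDerivAt (fun s : ℝ => dn (x + s • v) u) 0 0 := by
    have h0 : HasFDerivAt (dn : X → X →L[ℝ] ℝ) (d2n x) (x + (0:ℝ) • v) := by
      rw [hL0]; exact dn_hasF' hXs hx0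
    have h3 : HasDerivAt (fun s : ℝ => dn (x + s • v)) (d2n x v) 0 :=
      h0.comp_hasDerivAt (0:ℝ) hL
    have h4 := h3.clm_apply (hasDerivAt_const (0:ℝ) u)
    simpa [huv] using h4
  have hB : HasDerivAt (fun s : ℝ => ‖x + s • v‖) 0 0 := by
    have h0 : HasFDerivAt (norm : X → ℝ) (dn x) (x + (0:ℝ) • v) := by
      rw [hL0]; exact dn_hasF hXs hx0
    have h3 := h0.comp_hasDerivAt (0:ℝ) hL
    rw [hv] at h3
    exact h3
  have hα : HasDerivAt (fun s : ℝ => dn (x + s • v) u / ‖x + s • v‖) 0 0 := by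
    have h3 := hA.fun_div hB (by simp [hx])
    simpa using h3
  have hU : HasDerivAt (fun s : ℝ => u - (dn (x + s • v) u / ‖x + s • v‖) • (x + s • v)) 0 0 := by
    have h3 := (hα.fun_smul hL).const_sub u
    simpa [hu, hx] using h3
  have hU0 : u - (dn (x + (0:ℝ) • v) u / ‖x + (0:ℝ) • v‖) • (x + (0:ℝ) • v) = u := by
    simp [hu]
  have hdF : HasDerivAt (fun s : ℝ => fderiv ℝ F (x + s • v)) (fderiv ℝ (fderiv ℝ F) x v) 0 := by
    have h0 : HasFDerivAt (fderiv ℝ F) (fderiv ℝ (fderiv ℝ F) x) (x + (0:ℝ) • v) := by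
      rw [hL0]; exact dF_hasF' hFc hx0
    exact h0.comp_hasDerivAt (0:ℝ) hL
  have hW := hdF.clm_apply hU
  rw [hU0] at hW
  simp only [map_zero, add_zero] at hW
  have hu1 : fderiv ℝ F x u ≠ 0 := by
    intro h
    have := norm_dF hXs hFc hFh hFd hx0 hu
    rw [h, norm_zero] at this
    exact hu0 (norm_eq_zero.mp this.symm)
  have hnl : HasDerivAt (fun s : ℝ => ‖fderiv ℝ F (x + s • v)
        (u - (dn (x + s • v) u / ‖x + s • v‖) • (x + s • v))‖)
      (dn (fderiv ℝ F x u) (fderiv ℝ (fderiv ℝ F) x v u)) 0 := by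
    have h0 : HasFDerivAt (norm : Y → ℝ) (dn (fderiv ℝ F x u))
        (fderiv ℝ F (x + (0:ℝ) • v) (u - (dn (x + (0:ℝ) • v) u / ‖x + (0:ℝ) • v‖) • (x + (0:ℝ) • v))) := by
      rw [hU0, hL0]; exact dn_hasF hYs hu1
    exact h0.comp_hasDerivAt (0:ℝ) hW
  have hnr : HasDerivAt (fun s : ℝ => ‖u - (dn (x + s • v) u / ‖x + s • v‖) • (x + s • v)‖) 0 0 := by
    have h0 : HasFDerivAt (norm : X → ℝ) (dn u)
        (u - (dn (x + (0:ℝ) • v) u / ‖x + (0:ℝ) • v‖) • (x + (0:ℝ) • v)) := by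
      rw [hU0]; exact dn_hasF hXs hu0
    have h3 := h0.comp_hasDerivAt (0:ℝ) hU
    rw [map_zero] at h3
    exact h3
  refine (hnl.congr_of_eventuallyEq ?_).unique hnr
  filter_upwards [line_ne hXs hx0 v] with s hs
  refine (norm_dF hXs hFc hFh hFd hs ?_).symm
  have hne : ‖x + s • v‖ ≠ 0 := norm_ne_zero_iff.mpr hs
  rw [map_sub, map_smul, dn_self hXs hs, smul_eq_mul]
  field_simp
  ring

end tangential

section final

variable [FiniteDimensional ℝ X] [FiniteDimensional ℝ Y]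

include hXs hYs hFc hFh hFn hFd hFa

/-- Injectivity of the derivative. -/
theorem dF_inj {x : X} (hx : ‖x‖ = 1) : Function.Injective (fderiv ℝ F x) := by
  have hx0 : x ≠ 0 := by
    intro h; rw [h] at hx; simp at hx
  rw [injective_iff_map_eq_zero]
  intro y hy
  have h1 := dn_comp hXs hYs hFc hFn hx0 y
  rw [hy, map_zero] at h1
  have h2 := norm_dF_unit hXs hFc hFd hx h1.symm
  rw [hy, norm_zero] at h2
  exact norm_eq_zero.mp h2.symm

/-- The pointwise vanishing of the second derivative at unit vectors. -/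
theorem d2F_zero_unit (hdim : 3 ≤ finrank ℝ X) (hfin : finrank ℝ X = finrank ℝ Y) {x : X}
    (hx : ‖x‖ = 1) (hcurv : ∀ v : Y, v ≠ 0 → dn (F x) v = 0 → 0 < d2n (F x) v v) :
    fderiv ℝ (fderiv ℝ F) x = 0 := by
  have hx0 : x ≠ 0 := by
    intro h; rw [h] at hx; simp at hx
  let e0 : X ≃ₗ[ℝ] Y := LinearMap.linearEquivOfInjective (fderiv ℝ F x : X →ₗ[ℝ] Y)
    (dF_inj hXs hYs hFc hFh hFn hFd hFa hx) hfin
  let e : X ≃L[ℝ] Y := e0.toContinuousLinearEquiv
  have he : ∀ a, fderiv ℝ F x (e.symm a) = a := fun a => e.apply_symm_apply a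
  let C : X →L[ℝ] X →L[ℝ] X :=
    (ContinuousLinearMap.compL ℝ X Y X (e.symm : Y →L[ℝ] X)).comp (fderiv ℝ (fderiv ℝ F) x)
  have hC : ∀ a b, fderiv ℝ F x (C a b) = fderiv ℝ (fderiv ℝ F) x a b := fun a b => he _
  let T : Submodule ℝ X := LinearMap.ker (dn x : X →ₗ[ℝ] ℝ)
  have hT : ∀ a, a ∈ T ↔ dn x a = 0 := fun a => LinearMap.mem_ker
  have hCT : ∀ a b, C a b ∈ T := by
    intro a b
    rw [hT, ← dn_comp hXs hYs hFc hFn hx0, hC]
    exact dn_d2F hXs hYs hFc hFh hFn hFa hx0 a b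
  have hKK : ∀ a ∈ T, ∀ b ∈ T, d2n x a b = d2n (F x) (fderiv ℝ F x a) (fderiv ℝ F x b) := by
    intro a ha b hb
    exact (curv_eq hXs hYs hFc hFn hFa hx ((hT b).mp hb) ((hT a).mp ha)).symm
  have hG : Good T (d2n x) C :=
    { Ksymm := fun a _ b _ => d2n_symm hXs hx0 a b
      Kpos := by
        intro a ha ha0
        rw [hKK a ha a ha]
        refine hcurv _ ?_ ?_
        · intro h
          exact ha0 (dF_inj hXs hYs hFc hFh hFn hFd hFa hx (by rw [h, map_zero]))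
        · rw [dn_comp hXs hYs hFc hFn hx0]
          exact (hT a).mp ha
      Cmem := fun a _ b _ => hCT a b
      Csymm := by
        intro a _ b _
        apply dF_inj hXs hYs hFc hFh hFn hFd hFa hx
        rw [hC, hC, d2F_symm hFc hx0]
      KC := by
        intro a ha b hb c _
        rw [hKK a ha _ (hCT b c), hKK b hb _ (hCT a c), hC, hC]
        exact T_symm hXs hYs hFc hFh hFn hFa hx0 b c a
      h2 := by
        intro u hu hu0 w hw hKw
        rw [← dn_dF_tangent hXs hYs hFc hFh hFd hx ((hT u).mp hu) ((hT _).mp (hCT u w)) hu0, hC,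
          d2F_symm hFc hx0]
        exact moving_frame hXs hYs hFc hFh hFd hx ((hT u).mp hu) ((hT w).mp hw) hu0 hKw }
  have hfinT : 2 ≤ finrank ℝ T := by
    have h1 := LinearMap.finrank_range_add_finrank_ker (dn x : X →ₗ[ℝ] ℝ)
    have h2 : finrank ℝ (LinearMap.range (dn x : X →ₗ[ℝ] ℝ)) ≤ finrank ℝ ℝ :=
      Submodule.finrank_le _
    rw [Module.finrank_self] at h2
    have h3 : finrank ℝ (LinearMap.ker (dn x : X →ₗ[ℝ] ℝ)) = finrank ℝ T := rfl
    omega
  have hv := good_vanish hXs hG hfinT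
  ext a b
  rw [d2F_decomp hFc hFh hx0 (dn x a) (dn x b) a b, ← hC,
    hv _ ((hT _).mpr (tang hXs hx a)) _ ((hT _).mpr (tang hXs hx b))]
  simp

/-- Vanishing of the second derivative on the sphere under a density assumption. -/
theorem d2F_zero_sphere
    (hdense : ∀ x : X, ‖x‖ = 1 → ∀ ε : ℝ, 0 < ε → ∃ x' : X, ‖x'‖ = 1 ∧ ‖x' - x‖ < ε ∧
      ∀ v : Y, v ≠ 0 → dn (F x') v = 0 → 0 < d2n (F x') v v)
    (hdim : 3 ≤ finrank ℝ X) (hfin : finrank ℝ X = finrank ℝ Y) {x : X} (hx : ‖x‖ = 1) :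
    fderiv ℝ (fderiv ℝ F) x = 0 := by
  have hx0 : x ≠ 0 := by
    intro h; rw [h] at hx; simp at hx
  by_contra hne
  have hc : ContinuousAt (fderiv ℝ (fderiv ℝ F)) x := (d2F_hasF' hFc hx0).continuousAt
  have hev : ∀ᶠ z in 𝓝 x, fderiv ℝ (fderiv ℝ F) z ≠ 0 := hc.eventually_ne hne
  obtain ⟨ε, hε, hball⟩ := Metric.eventually_nhds_iff.mp hev
  obtain ⟨x', hx1, hxd, hpos⟩ := hdense x hx ε hε
  refine hball (y := x') ?_ (d2F_zero_unit hXs hYs hFc hFh hFn hFd hFa hdim hfin hx1 hpos)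
  rwa [dist_eq_norm]

/-- Vanishing of the second derivative. -/
theorem d2F_zero
    (hdense : ∀ x : X, ‖x‖ = 1 → ∀ ε : ℝ, 0 < ε → ∃ x' : X, ‖x'‖ = 1 ∧ ‖x' - x‖ < ε ∧
      ∀ v : Y, v ≠ 0 → dn (F x') v = 0 → 0 < d2n (F x') v v)
    (hdim : 3 ≤ finrank ℝ X) (hfin : finrank ℝ X = finrank ℝ Y) {x : X} (hx : x ≠ 0) :
    fderiv ℝ (fderiv ℝ F) x = 0 := by
  have hc : (0:ℝ) < ‖x‖⁻¹ := by positivity [norm_pos_iff.mpr hx]
  have h1 : ‖x‖⁻¹ • fderiv ℝ (fderiv ℝ F) (rad x) = fderiv ℝ (fderiv ℝ F) x :=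
    d2F_smul hFc hFh hc hx
  rw [← h1, d2F_zero_sphere hXs hYs hFc hFh hFn hFd hFa hdense hdim hfin (norm_rad hx), smul_zero]

/-- The extension is linear. -/
theorem exists_linear
    (hdense : ∀ x : X, ‖x‖ = 1 → ∀ ε : ℝ, 0 < ε → ∃ x' : X, ‖x'‖ = 1 ∧ ‖x' - x‖ < ε ∧
      ∀ v : Y, v ≠ 0 → dn (F x') v = 0 → 0 < d2n (F x') v v)
    (hdim : 3 ≤ finrank ℝ X) (hfin : finrank ℝ X = finrank ℝ Y) :
    ∃ L : X →L[ℝ] Y, ∀ x, x ≠ 0 → L x = F x := by
  have hrank : 1 < Module.rank ℝ X := by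
    have h1 : (1 : Cardinal) < (finrank ℝ X : Cardinal) := by
      exact_mod_cast (by omega : 1 < finrank ℝ X)
    rwa [Module.finrank_eq_rank] at h1
  have hconn : IsPreconnected ({0}ᶜ : Set X) :=
    (isConnected_compl_singleton_of_one_lt_rank hrank (0:X)).isPreconnected
  have hopen : IsOpen ({0}ᶜ : Set X) := isOpen_compl_singleton
  have hdiff : DifferentiableOn ℝ (fderiv ℝ F) ({0}ᶜ : Set X) := by
    intro x hx
    exact (dF_hasF' hFc hx).differentiableAt.differentiableWithinAt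
  have hzero : ({0}ᶜ : Set X).EqOn (fderiv ℝ (fderiv ℝ F)) 0 := by
    intro x hx
    exact d2F_zero hXs hYs hFc hFh hFn hFd hFa hdense hdim hfin hx
  have hnt : Nontrivial X := by
    apply Module.nontrivial_of_finrank_pos (R := ℝ)
    omega
  obtain ⟨x1, hx1⟩ := exists_ne (0:X)
  refine ⟨fderiv ℝ F x1, fun x hx => ?_⟩
  have h := hopen.is_const_of_fderiv_eq_zero hconn hdiff hzero (show x1 ∈ ({0}ᶜ : Set X) from hx1)
    (show x ∈ ({0}ᶜ : Set X) from hx)
  rw [h]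
  exact dF_self hFc hFh hx

end final

end main

end Vale.Agent.P084
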