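import Vale.Agent.P084.Alg

/-!
The radial extension of an isometry between unit spheres, and its regularity (helper for P084).
-/

namespace Vale.Agent.P084

open Topology Filter Set Module Metric
open scoped ContDiff

variable {X Y : Type*} [NormedAddCommGroup X] [NormedSpace ℝ X] [NormedAddCommGroup Y]
  [NormedSpace ℝ Y]

/-- radial projection -/
noncomputable def rad (x : X) : X := ‖x‖⁻¹ • x

theorem norm_rad {x : X} (hx : x ≠ 0) : ‖rad x‖ = 1 := by
  rw [rad, norm_smul, norm_inv, norm_norm, inv_mul_cancel₀ (norm_ne_zero_iff.mpr hx)]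

theorem rad_mem {x : X} (hx : x ≠ 0) : rad x ∈ sphere (0:X) 1 := by
  simp [norm_rad hx]

theorem rad_of_unit {x : X} (hx : ‖x‖ = 1) : rad x = x := by
  simp [rad, hx]

theorem rad_smul {c : ℝ} (hc : 0 < c) {x : X} (hx : x ≠ 0) : rad (c • x) = rad x := by
  rw [rad, rad, norm_smul, Real.norm_of_nonneg hc.le, smul_smul, mul_inv, mul_assoc,
    mul_comm (‖x‖⁻¹), ← mul_assoc, inv_mul_cancel₀ hc.ne', one_mul]

theorem rad_neg (x : X) : rad (-x) = - rad x := by
  simp [rad]

open scoped Classical in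
/-- the map on the nonzero vectors -/
noncomputable def G (f : sphere (0:X) 1 → sphere (0:Y) 1) (x : X) : Y :=
  if h : x = 0 then 0 else (f ⟨rad x, rad_mem h⟩ : Y)

/-- the radial extension -/
noncomputable def F (f : sphere (0:X) 1 → sphere (0:Y) 1) (x : X) : Y := ‖x‖ • G f x

variable (f : sphere (0:X) 1 → sphere (0:Y) 1)

theorem G_of_ne {x : X} (hx : x ≠ 0) : G f x = (f ⟨rad x, rad_mem hx⟩ : Y) := by
  simp [G, hx]

theorem norm_G {x : X} (hx : x ≠ 0) : ‖G f x‖ = 1 := by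
  rw [G_of_ne f hx]
  simpa using (f ⟨rad x, rad_mem hx⟩).2

theorem G_of_unit {x : X} (hx : ‖x‖ = 1) (hm : x ∈ sphere (0:X) 1) : G f x = (f ⟨x, hm⟩ : Y) := by
  have hx0 : x ≠ 0 := by
    intro h; rw [h] at hx; simp at hx
  rw [G_of_ne f hx0]
  congr 2
  exact Subtype.ext (rad_of_unit hx)

theorem G_smul {c : ℝ} (hc : 0 < c) {x : X} (hx : x ≠ 0) : G f (c • x) = G f x := by
  rw [G_of_ne f hx, G_of_ne f (smul_ne_zero hc.ne' hx)]
  congr 2
  exact Subtype.ext (rad_smul hc hx)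

theorem G_rad {x : X} (hx : x ≠ 0) : G f (rad x) = G f x := by
  have h0 : rad x ≠ 0 := by
    intro h
    have := norm_rad hx
    rw [h] at this
    simp at this
  have h1 : (‖x‖⁻¹ : ℝ) > 0 := by positivity
  rw [rad, G_smul f h1 hx]

theorem G_dist (hf : Isometry f) {x z : X} (hx : x ≠ 0) (hz : z ≠ 0) :
    ‖G f x - G f z‖ = ‖rad x - rad z‖ := by
  rw [G_of_ne f hx, G_of_ne f hz]
  have := hf.dist_eq ⟨rad x, rad_mem hx⟩ ⟨rad z, rad_mem hz⟩
  simpa [Subtype.dist_eq, dist_eq_norm] using this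

section curv

variable (hYs : ContDiffOn ℝ 3 (norm : Y → ℝ) {0}ᶜ)

include hYs

/-- At a point of positive curvature the antipode is characterised by the distance two. -/
theorem anti_of_pos {a b : Y} (ha : ‖a‖ = 1) (hb : ‖b‖ = 1) (hab : ‖a - b‖ = 2)
    (hpos : ∀ v : Y, v ≠ 0 → dn a v = 0 → 0 < d2n a v v) : b = -a := by
  by_contra hne
  set c : Y := -b with hc
  have hcn : ‖c‖ = 1 := by rw [hc, norm_neg, hb]
  have hac : ‖a + c‖ = 2 := by rw [hc, ← sub_eq_add_neg, hab]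
  set v : Y := c - a with hv
  have hv0 : v ≠ 0 := by
    intro h
    apply hne
    have h1 : c = a := sub_eq_zero.mp h
    rw [← h1, hc, neg_neg]
  have ha0 : a ≠ 0 := by
    intro h; rw [h] at ha; simp at ha
  have hg : ∀ s : ℝ, 0 < s → s < 1 → ‖a + s • v‖ = 1 := by
    intro s hs0 hs1
    have e1 : a + s • v = (1 - s) • a + s • c := by
      rw [hv]; module
    have e2 : a + (1 - s) • v = s • a + (1 - s) • c := by
      rw [hv]; module
    have hle1 : ‖a + s • v‖ ≤ 1 := by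
      rw [e1]
      calc _ ≤ ‖(1 - s) • a‖ + ‖s • c‖ := norm_add_le _ _
        _ = (1 - s) + s := by
          rw [norm_smul, norm_smul, ha, hcn, Real.norm_of_nonneg (by linarith),
            Real.norm_of_nonneg hs0.le]; ring
        _ = 1 := by ring
    have hle2 : ‖a + (1 - s) • v‖ ≤ 1 := by
      rw [e2]
      calc _ ≤ ‖s • a‖ + ‖(1 - s) • c‖ := norm_add_le _ _
        _ = s + (1 - s) := by
          rw [norm_smul, norm_smul, ha, hcn, Real.norm_of_nonneg hs0.le,
            Real.norm_of_nonneg (by linarith)]; ring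
        _ = 1 := by ring
    have hsum : a + c = (a + s • v) + (a + (1 - s) • v) := by
      rw [hv]; module
    have h2 : (2:ℝ) ≤ ‖a + s • v‖ + ‖a + (1 - s) • v‖ := by
      rw [← hac, hsum]
      exact norm_add_le _ _
    linarith
  have hline : ∀ t : ℝ, HasDerivAt (fun s : ℝ => a + s • v) v t := by
    intro t
    have h := ((hasDerivAt_id t).smul_const v).const_add a
    simpa using h
  have hdn0 : ∀ t : ℝ, 0 < t → t < 1 → dn (a + t • v) v = 0 := by
    intro t ht0 ht1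
    have hne0 : a + t • v ≠ 0 := by
      intro h
      have := hg t ht0 ht1
      rw [h] at this
      simp at this
    have h1 : HasDerivAt (fun s : ℝ => ‖a + s • v‖) (dn (a + t • v) v) t :=
      (dn_hasF hYs hne0).comp_hasDerivAt t (hline t)
    have hev : (fun s : ℝ => ‖a + s • v‖) =ᶠ[𝓝 t] fun _ => (1:ℝ) := by
      filter_upwards [Ioo_mem_nhds ht0 ht1] with s hs
      exact hg s hs.1 hs.2
    exact (h1.congr_of_eventuallyEq hev.symm).unique (hasDerivAt_const t 1)
  have h2 : HasDerivAt (fun t : ℝ => dn (a + t • v) v) (d2n a v v) 0 := by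
    have h0 : HasFDerivAt (dn : Y → Y →L[ℝ] ℝ) (d2n a) (a + (0:ℝ) • v) := by
      simpa using dn_hasF' hYs ha0
    have h3 : HasDerivAt (fun t : ℝ => dn (a + t • v)) (d2n a v) 0 :=
      h0.comp_hasDerivAt (0:ℝ) (hline 0)
    simpa using h3.clm_apply (hasDerivAt_const (0:ℝ) v)
  have hevr : ∀ᶠ t : ℝ in 𝓝[>] 0, dn (a + t • v) v = 0 := by
    filter_upwards [Ioo_mem_nhdsGT (show (0:ℝ) < 1 by norm_num)] with t ht
    exact hdn0 t ht.1 ht.2
  have hval : dn a v = 0 := by
    have hlim : Tendsto (fun t : ℝ => dn (a + t • v) v) (𝓝[>] 0) (𝓝 (dn a v)) := by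
      have := h2.continuousAt.tendsto
      simp only [zero_smul, add_zero] at this
      exact this.mono_left nhdsWithin_le_nhds
    exact tendsto_nhds_unique (hlim.congr' hevr) tendsto_const_nhds
  have hsec : d2n a v v = 0 := by
    have hsl := h2.tendsto_slope_zero_right
    have hz : ∀ᶠ t : ℝ in 𝓝[>] 0,
        t⁻¹ • (dn (a + (0 + t) • v) v - dn (a + (0:ℝ) • v) v) = 0 := by
      filter_upwards [hevr] with t ht
      simp [ht, hval]
    exact tendsto_nhds_unique (hsl.congr' hz) tendsto_const_nhds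
  have := hpos v hv0 hval
  linarith

end curv

section homogF

theorem F_smul {c : ℝ} (hc : 0 < c) {x : X} : F f (c • x) = c • F f x := by
  by_cases hx : x = 0
  · simp [F, hx, G]
  · simp only [F]
    rw [G_smul f hc hx, norm_smul, Real.norm_of_nonneg hc.le, smul_smul]

theorem norm_F (x : X) : ‖F f x‖ = ‖x‖ := by
  by_cases hx : x = 0
  · simp [F, hx, G]
  · simp [F, norm_smul, norm_G f hx]

theorem F_of_unit {x : X} (hx : ‖x‖ = 1) : F f x = G f x := by
  simp [F, hx]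

end homogF

section chords

variable (hYs : ContDiffOn ℝ 3 (norm : Y → ℝ) {0}ᶜ)

include hYs in
/-- A line through a unit vector in a direction pointing inwards meets the sphere again. -/
theorem chord_exists {y0 w : Y} (hy0 : ‖y0‖ = 1) (hpos : 0 < dn y0 w) :
    ∃ t : ℝ, 0 < t ∧ ‖y0 - t • w‖ = 1 := by
  have hy00 : y0 ≠ 0 := by
    intro h; rw [h] at hy0; simp at hy0
  have hw0 : w ≠ 0 := by
    intro h; rw [h] at hpos; simp at hpos
  have hline : HasDerivAt (fun t : ℝ => y0 - t • w) (-w) 0 := by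
    have h := ((hasDerivAt_id (0:ℝ)).smul_const w).const_sub y0
    simpa using h
  have h0 : HasFDerivAt (norm : Y → ℝ) (dn y0) (y0 - (0:ℝ) • w) := by
    simpa using dn_hasF hYs hy00
  have hd : HasDerivAt (fun t : ℝ => ‖y0 - t • w‖) (dn y0 (-w)) 0 :=
    h0.comp_hasDerivAt (0:ℝ) hline
  have hslope := hd.tendsto_slope_zero_right
  have hneg : dn y0 (-w) < 0 := by
    rw [map_neg]; linarith
  have hev : ∀ᶠ t : ℝ in 𝓝[>] 0, t⁻¹ • (‖y0 - (0 + t) • w‖ - ‖y0 - (0:ℝ) • w‖) < 0 :=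
    hslope.eventually (gt_mem_nhds hneg)
  obtain ⟨t1, ht1, ht1pos⟩ := (hev.and self_mem_nhdsWithin).exists
  have ht1pos' : (0:ℝ) < t1 := ht1pos
  have ht1' : ‖y0 - t1 • w‖ < 1 := by
    simp only [zero_add, zero_smul, sub_zero, hy0, smul_eq_mul] at ht1
    have h3 : t1 * (t1⁻¹ * (‖y0 - t1 • w‖ - 1)) < 0 := mul_neg_of_pos_of_neg ht1pos' ht1
    rw [← mul_assoc, mul_inv_cancel₀ ht1pos'.ne', one_mul] at h3
    linarith
  have hwn : 0 < ‖w‖ := norm_pos_iff.mpr hw0
  set t2 : ℝ := 3 / ‖w‖ with ht2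
  have ht2pos : 0 < t2 := by positivity
  have ht2' : 1 < ‖y0 - t2 • w‖ := by
    have h3 : ‖t2 • w‖ ≤ ‖y0 - t2 • w‖ + ‖y0‖ := by
      have e : t2 • w = y0 - (y0 - t2 • w) := by abel
      have h5 := norm_sub_le y0 (y0 - t2 • w)
      rw [← e] at h5
      linarith
    rw [norm_smul, Real.norm_of_nonneg ht2pos.le, hy0] at h3
    have h4 : t2 * ‖w‖ = 3 := by rw [ht2]; field_simp
    linarith
  have hcont : ContinuousOn (fun t : ℝ => ‖y0 - t • w‖) (uIcc t1 t2) := by
    apply Continuous.continuousOn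
    exact (continuous_const.sub (continuous_id.smul continuous_const)).norm
  have hmem : (1:ℝ) ∈ uIcc (‖y0 - t1 • w‖) (‖y0 - t2 • w‖) :=
    Set.mem_uIcc.mpr (Or.inl ⟨ht1'.le, ht2'.le⟩)
  obtain ⟨t, ht, hte⟩ := intermediate_value_uIcc hcont hmem
  refine ⟨t, ?_, hte⟩
  have h5 : min t1 t2 ≤ t := by
    have h6 : t ∈ Set.Icc (min t1 t2) (max t1 t2) := ht
    exact h6.1
  exact lt_of_lt_of_le (lt_min ht1pos' ht2pos) h5

include hYs in
/-- For every nonzero vector there is a chord functional not vanishing on it. -/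
theorem chord_separates {y0 : Y} (hy0 : ‖y0‖ = 1) {q : Y} (hq : q ≠ 0) :
    ∃ z : Y, ‖z‖ = 1 ∧ z ≠ y0 ∧ dn (y0 - z) q ≠ 0 := by
  by_contra! hcon
  have hy00 : y0 ≠ 0 := by
    intro h; rw [h] at hy0; simp at hy0
  have h1 : dn y0 q = 0 := by
    have h2 := hcon (-y0) (by simpa using hy0) (by
      intro h
      have : (2:ℝ) • y0 = 0 := by
        rw [two_smul]
        nth_rewrite 1 [← h]
        simp
      simp [hy00] at this)
    have e : y0 - -y0 = (2:ℝ) • y0 := by rw [two_smul]; abel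
    rwa [e, dn_smul hYs (by norm_num) hy00] at h2
  have hself : dn y0 y0 = 1 := by rw [dn_self hYs hy00, hy0]
  have hne0 : ∀ s : ℝ, y0 + s • q ≠ 0 := by
    intro s h
    have hw : dn y0 (y0 + s • q) = 1 := by
      simp [map_add, map_smul, h1, hself]
    rw [h] at hw
    simp at hw
  have h2 : ∀ s : ℝ, dn (y0 + s • q) q = 0 := by
    intro s
    have hw : dn y0 (y0 + s • q) = 1 := by
      simp [map_add, map_smul, h1, hself]
    have hw0 := hne0 s
    obtain ⟨t, htpos, ht⟩ := chord_exists hYs hy0 (w := y0 + s • q) (by rw [hw]; norm_num)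
    have hne : y0 - t • (y0 + s • q) ≠ y0 := by
      intro h
      have : t • (y0 + s • q) = 0 := by
        have h3 := sub_eq_self.mp h
        exact h3
      exact (smul_ne_zero htpos.ne' hw0) this
    have h3 := hcon _ ht hne
    have e : y0 - (y0 - t • (y0 + s • q)) = t • (y0 + s • q) := by abel
    rwa [e, dn_smul hYs htpos hw0] at h3
  -- the norm would be constant along a line
  have hderiv : ∀ s : ℝ, HasDerivAt (fun r : ℝ => ‖y0 + r • q‖) 0 s := by
    intro s
    have hline : HasDerivAt (fun r : ℝ => y0 + r • q) q s := by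
      simpa using ((hasDerivAt_id s).smul_const q).const_add y0
    have h3 := (dn_hasF hYs (hne0 s)).comp_hasDerivAt s hline
    rw [h2 s] at h3
    exact h3
  have hconst : ∀ s : ℝ, ‖y0 + s • q‖ = 1 := by
    intro s
    have h3 := is_const_of_deriv_eq_zero (fun r => (hderiv r).differentiableAt)
      (fun r => (hderiv r).deriv) s 0
    simpa [hy0] using h3
  have hqn : 0 < ‖q‖ := norm_pos_iff.mpr hq
  have h3 : ‖(3 / ‖q‖) • q‖ ≤ ‖y0 + (3 / ‖q‖) • q‖ + ‖y0‖ := by
    have e : (3 / ‖q‖) • q = (y0 + (3 / ‖q‖) • q) - y0 := by abel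
    have h4 := norm_sub_le (y0 + (3 / ‖q‖) • q) y0
    rwa [← e] at h4
  rw [hconst, hy0, norm_smul, Real.norm_of_nonneg (by positivity)] at h3
  have h4 : 3 / ‖q‖ * ‖q‖ = 3 := by field_simp
  linarith

end chords

section regularity

variable [FiniteDimensional ℝ Y]
  (hYs : ContDiffOn ℝ 3 (norm : Y → ℝ) {0}ᶜ)

include hYs in
/-- Finitely many chord functionals separate points. -/
theorem chord_family {y0 : Y} (hy0 : ‖y0‖ = 1) :
    ∃ s : Finset Y, (∀ z ∈ s, ‖z‖ = 1 ∧ z ≠ y0) ∧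
      ∀ q : Y, (∀ z ∈ s, dn (y0 - z) q = 0) → q = 0 := by
  classical
  let A : Set Y := {z | ‖z‖ = 1 ∧ z ≠ y0}
  let φ : Y → (Y →L[ℝ] ℝ) := fun z => dn (y0 - z)
  have hfg : (Submodule.span ℝ (φ '' A)).FG := IsNoetherian.noetherian _
  obtain ⟨t, ht, hspan⟩ := (Submodule.fg_span_iff_fg_span_finset_subset _).mp hfg
  obtain ⟨s, hs, rfl⟩ := Finset.subset_set_image_iff.mp ht
  refine ⟨s, fun z hz => hs hz, fun q hq => ?_⟩
  by_contra hq0
  obtain ⟨z, hz1, hz2, hz3⟩ := chord_separates hYs hy0 hq0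
  apply hz3
  have hmem : φ z ∈ Submodule.span ℝ (φ '' A) := Submodule.subset_span ⟨z, ⟨hz1, hz2⟩, rfl⟩
  rw [hspan] at hmem
  have key : ∀ ψ ∈ Submodule.span ℝ ((s.image φ : Finset (Y →L[ℝ] ℝ)) : Set (Y →L[ℝ] ℝ)),
      ψ q = 0 := by
    intro ψ hψ
    induction hψ using Submodule.span_induction with
    | mem x hx =>
      obtain ⟨w, hw, rfl⟩ := Finset.mem_image.mp (Finset.mem_coe.mp hx)
      exact hq w hw
    | zero => simp
    | add x y _ _ hx hy => simp [hx, hy]
    | smul a x _ hx => simp [hx]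
  exact key _ hmem

theorem contDiffAt_rad {E : Type*} [NormedAddCommGroup E] [NormedSpace ℝ E]
    (hs : ContDiffOn ℝ 3 (norm : E → ℝ) {0}ᶜ) {x0 : E} (hx0 : x0 ≠ 0) :
    ContDiffAt ℝ 3 (rad : E → E) x0 := by
  have h1 : ContDiffAt ℝ 3 (fun x : E => ‖x‖⁻¹) x0 :=
    (cda hs hx0).inv (norm_ne_zero_iff.mpr hx0)
  exact h1.smul contDiffAt_id

include hYs in
/-- Regularity of the radial map. -/
theorem contDiffAt_G (hXs : ContDiffOn ℝ 3 (norm : X → ℝ) {0}ᶜ) (hf : Isometry f)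
    (hsurj : Function.Surjective f) {x0 : X} (hx0 : x0 ≠ 0) : ContDiffAt ℝ 3 (G f) x0 := by
  classical
  set y0 : Y := G f x0 with hy0def
  have hy0 : ‖y0‖ = 1 := norm_G f hx0
  obtain ⟨s, hs1, hs2⟩ := chord_family hYs hy0
  -- preimages of the chord endpoints
  have hpre : ∀ z : s, ∃ a : X, a ≠ 0 ∧ ‖a‖ = 1 ∧ G f a = (z : Y) := by
    intro z
    obtain ⟨a, ha⟩ := hsurj ⟨(z : Y), by simpa using (hs1 z z.2).1⟩
    have ha1 : ‖(a : X)‖ = 1 := by simpa using a.2
    have ha0 : (a : X) ≠ 0 := by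
      intro h; rw [h] at ha1; simp at ha1
    refine ⟨a, ha0, ha1, ?_⟩
    rw [G_of_unit f ha1 a.2, ha]
  choose a ha0 ha1 haG using hpre
  let Φ : Y → (s → ℝ) := fun y i => ‖y - (i : Y)‖
  have hne : ∀ i : s, y0 - (i : Y) ≠ 0 := fun i => sub_ne_zero.mpr (hs1 i i.2).2.symm
  have hΦc : ContDiffAt ℝ 3 Φ y0 := by
    refine contDiffAt_pi.mpr fun i => ?_
    exact (cda hYs (hne i)).comp y0 (contDiffAt_id.sub contDiffAt_const)
  let Λ : Y →L[ℝ] (s → ℝ) := ContinuousLinearMap.pi fun i : s => dn (y0 - (i : Y))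
  have hΦd : HasFDerivAt Φ Λ y0 := by
    refine hasFDerivAt_pi.mpr fun i => ?_
    exact (dn_hasF hYs (hne i)).comp y0 ((hasFDerivAt_id y0).sub_const _)
  have hker : LinearMap.ker (Λ : Y →ₗ[ℝ] (s → ℝ)) = ⊥ := by
    rw [LinearMap.ker_eq_bot']
    intro q hq
    apply hs2 q
    intro z hz
    exact congrFun hq ⟨z, hz⟩
  obtain ⟨π0, hπ0⟩ := LinearMap.exists_leftInverse_of_injective _ hker
  let π : (s → ℝ) →L[ℝ] Y := LinearMap.toContinuousLinearMap π0
  have hπΛ : ∀ q, π (Λ q) = q := fun q => LinearMap.congr_fun hπ0 q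
  let G1 : Y → Y := fun y => π (Φ y)
  have hG1c : ContDiffAt ℝ 3 G1 y0 := π.contDiff.contDiffAt.comp y0 hΦc
  let e : Y ≃L[ℝ] Y := ContinuousLinearEquiv.refl ℝ Y
  have hG1d : HasFDerivAt G1 (e : Y →L[ℝ] Y) y0 := by
    have h := π.hasFDerivAt.comp y0 hΦd
    have e' : π.comp Λ = (e : Y →L[ℝ] Y) := by
      ext q
      exact hπΛ q
    rw [← e']
    exact h
  have hn : (3 : WithTop ℕ∞) ≠ 0 := by norm_num
  let g : Y → Y := hG1c.localInverse hG1d hn
  have hgc : ContDiffAt ℝ 3 g (G1 y0) := hG1c.to_localInverse hG1d hn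
  have hgl : ∀ᶠ y in 𝓝 y0, g (G1 y) = y := (hG1c.hasStrictFDerivAt' hG1d hn).eventually_left_inverse
  -- the explicit formula
  let R : X → (s → ℝ) := fun x i => ‖rad x - a i‖
  have hval : ∀ x : X, x ≠ 0 → Φ (G f x) = R x := by
    intro x hx
    funext i
    have h1 := G_dist f hf hx (ha0 i)
    rw [haG i, rad_of_unit (ha1 i)] at h1
    exact h1
  have hRne : ∀ i : s, rad x0 - a i ≠ 0 := by
    intro i h
    have h1 := hval x0 hx0
    have h2 := congrFun h1 i
    have h3 : ‖y0 - (i : Y)‖ = ‖rad x0 - a i‖ := h2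
    rw [h, norm_zero] at h3
    exact hne i (norm_eq_zero.mp h3)
  have hRc : ContDiffAt ℝ 3 R x0 := by
    refine contDiffAt_pi.mpr fun i => ?_
    exact (cda hXs (hRne i)).comp x0 ((contDiffAt_rad hXs hx0).sub contDiffAt_const)
  have hformula : ContDiffAt ℝ 3 (fun x => g (π (R x))) x0 := by
    have h1 : ContDiffAt ℝ 3 (fun x => π (R x)) x0 := π.contDiff.contDiffAt.comp x0 hRc
    have h2 : π (R x0) = G1 y0 := by
      change π (R x0) = π (Φ y0)
      rw [hval x0 hx0]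
    have hgc' : ContDiffAt ℝ 3 g (π (R x0)) := by rw [h2]; exact hgc
    exact ContDiffAt.comp x0 hgc' h1
  -- continuity of the radial map
  have hGcont : ContinuousAt (G f) x0 := by
    rw [Metric.continuousAt_iff]
    intro ε hε
    have hr : ContinuousAt (rad : X → X) x0 := (contDiffAt_rad hXs hx0).continuousAt
    obtain ⟨δ, hδ, hδ'⟩ := Metric.continuousAt_iff.mp hr ε hε
    refine ⟨min δ ‖x0‖, lt_min hδ (norm_pos_iff.mpr hx0), fun x hx => ?_⟩
    have hx1 : dist x x0 < δ := lt_of_lt_of_le hx (min_le_left _ _)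
    have hx2 : dist x x0 < ‖x0‖ := lt_of_lt_of_le hx (min_le_right _ _)
    have hxne : x ≠ 0 := by
      intro h
      rw [h, dist_zero_left] at hx2
      exact lt_irrefl _ hx2
    rw [dist_eq_norm, G_dist f hf hxne hx0, ← dist_eq_norm]
    exact hδ' hx1
  refine hformula.congr_of_eventuallyEq ?_
  have h1 : ∀ᶠ x in 𝓝 x0, g (G1 (G f x)) = G f x := hGcont.eventually hgl
  filter_upwards [h1, ev_ne hx0] with x hx hxne
  rw [← hx]
  change _ = g (π (R x))
  rw [show G1 (G f x) = π (R x) by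
    change π (Φ (G f x)) = _
    rw [hval x hxne]] 

include hYs in
theorem contDiffAt_F (hXs : ContDiffOn ℝ 3 (norm : X → ℝ) {0}ᶜ) (hf : Isometry f)
    (hsurj : Function.Surjective f) {x0 : X} (hx0 : x0 ≠ 0) : ContDiffAt ℝ 3 (F f) x0 :=
  (cda hXs hx0).smul (contDiffAt_G f hYs hXs hf hsurj hx0)

end regularity

end Vale.Agent.P084
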